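import Mathlib

/-! # P097 / TRIG-T6, part a: pointwise ultrafilter limits of bounded holomorphic functions -/

set_option linter.all false

open Complex Metric Filter Topology Set

namespace Vale.Agent.P097.H133

/-- first and second order Cauchy estimates in one variable -/
theorem taylor_one {g : ℂ → ℂ} {ρ M : ℝ} (hρ : 0 < ρ) (hM : 0 < M)
    (hg : DifferentiableOn ℂ g (ball 0 ρ)) (hb : ∀ τ ∈ ball (0 : ℂ) ρ, ‖g τ‖ ≤ M) :
    ‖deriv g 0‖ ≤ 3 * M / ρ ∧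
      ∀ τ ∈ ball (0 : ℂ) ρ, ‖g τ - g 0 - τ * deriv g 0‖ ≤ 7 * M / ρ ^ 2 * ‖τ‖ ^ 2 := by
  have h0 : (0 : ℂ) ∈ ball (0 : ℂ) ρ := mem_ball_self hρ
  have hm : MapsTo g (ball 0 ρ) (ball (g 0) (3 * M)) := by
    intro τ hτ
    rw [mem_ball, dist_eq_norm]
    have := norm_sub_le (g τ) (g 0)
    have h1 := hb τ hτ
    have h2 := hb 0 h0
    linarith
  have hd : ∀ τ ∈ ball (0 : ℂ) ρ, ‖dslope g 0 τ‖ ≤ 3 * M / ρ := fun τ hτ =>
    Complex.norm_dslope_le_div_of_mapsTo_ball hg (hm.mono_right ball_subset_closedBall) hτ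
  have hs : dslope g 0 0 = deriv g 0 := dslope_same g 0
  refine ⟨hs ▸ hd 0 h0, fun τ hτ => ?_⟩
  have hG : DifferentiableOn ℂ (dslope g 0) (ball 0 ρ) :=
    (differentiableOn_dslope (isOpen_ball.mem_nhds h0)).2 hg
  have hm2 : MapsTo (dslope g 0) (ball 0 ρ) (ball (dslope g 0 0) (7 * M / ρ)) := by
    intro σ hσ
    rw [mem_ball, dist_eq_norm]
    have := norm_sub_le (dslope g 0 σ) (dslope g 0 0)
    have h1 := hd σ hσ
    have h2 := hd 0 h0
    have h3 : 7 * M / ρ = 3 * M / ρ + 3 * M / ρ + M / ρ := by ring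
    have h4 : 0 < M / ρ := by positivity
    linarith
  have h5 := Complex.dist_le_div_mul_dist_of_mapsTo_ball hG
    (hm2.mono_right ball_subset_closedBall) hτ
  have h6 : g τ - g 0 = τ * dslope g 0 τ := by
    have := sub_smul_dslope g 0 τ
    rw [sub_zero, smul_eq_mul] at this
    exact this.symm
  rw [h6, ← hs, ← mul_sub, norm_mul]
  rw [dist_eq_norm, dist_eq_norm, sub_zero] at h5
  calc ‖τ‖ * ‖dslope g 0 τ - dslope g 0 0‖ ≤ ‖τ‖ * (7 * M / ρ / ρ * ‖τ‖) :=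
        mul_le_mul_of_nonneg_left h5 (norm_nonneg _)
    _ = 7 * M / ρ ^ 2 * ‖τ‖ ^ 2 := by ring

variable {E : Type*} [NormedAddCommGroup E] [NormedSpace ℂ E]

/-- the same in several variables -/
theorem taylor_E {f : E → ℂ} {p : E} {ρ M : ℝ} (hρ : 0 < ρ) (hM : 0 < M)
    (hf : DifferentiableOn ℂ f (ball p ρ)) (hb : ∀ q ∈ ball p ρ, ‖f q‖ ≤ M) (h : E) :
    ‖fderiv ℂ f p h‖ ≤ 3 * M / ρ * ‖h‖ ∧
      (‖h‖ < ρ → ‖f (p + h) - f p - fderiv ℂ f p h‖ ≤ 7 * M / ρ ^ 2 * ‖h‖ ^ 2) := by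
  rcases eq_or_ne h 0 with rfl | hh
  · simp
  have hn : 0 < ‖h‖ := norm_pos_iff.2 hh
  set g : ℂ → ℂ := fun τ => f (p + τ • h) with hgdef
  have hR : 0 < ρ / ‖h‖ := by positivity
  have hin : ∀ τ ∈ ball (0 : ℂ) (ρ / ‖h‖), p + τ • h ∈ ball p ρ := by
    intro τ hτ
    rw [mem_ball, dist_eq_norm, add_sub_cancel_left, norm_smul]
    rw [mem_ball_zero_iff, lt_div_iff₀ hn] at hτ
    exact hτ
  have hlin : ∀ τ : ℂ, HasDerivAt (fun τ : ℂ => p + τ • h) h τ := by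
    intro τ
    simpa using ((hasDerivAt_id τ).smul_const h).const_add p
  have hgd : DifferentiableOn ℂ g (ball 0 (ρ / ‖h‖)) := by
    refine hf.comp (fun τ _ => (hlin τ).differentiableAt.differentiableWithinAt) hin
  have hgb : ∀ τ ∈ ball (0 : ℂ) (ρ / ‖h‖), ‖g τ‖ ≤ M := fun τ hτ => hb _ (hin τ hτ)
  have hfp : DifferentiableAt ℂ f (p + (0 : ℂ) • h) := by
    rw [zero_smul, add_zero]
    exact hf.differentiableAt (isOpen_ball.mem_nhds (mem_ball_self hρ))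
  have hd : deriv g 0 = fderiv ℂ f p h := by
    have := hfp.hasFDerivAt.comp_hasDerivAt (0 : ℂ) (hlin 0)
    rw [zero_smul, add_zero] at this
    exact this.deriv
  obtain ⟨h1, h2⟩ := taylor_one hR hM hgd hgb
  constructor
  · rw [← hd]
    calc ‖deriv g 0‖ ≤ 3 * M / (ρ / ‖h‖) := h1
      _ = 3 * M / ρ * ‖h‖ := by field_simp
  · intro hlt
    have h3 := h2 1 (by rw [mem_ball_zero_iff, norm_one, one_lt_div hn]; exact hlt)
    simp only [hgdef, one_smul, zero_smul, add_zero, one_mul, norm_one, one_pow, mul_one] at h3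
    rw [← hgdef, hd] at h3
    calc ‖f (p + h) - f p - fderiv ℂ f p h‖ ≤ 7 * M / (ρ / ‖h‖) ^ 2 := h3
      _ = 7 * M / ρ ^ 2 * ‖h‖ ^ 2 := by field_simp

/-- the pointwise limit along an ultrafilter of uniformly bounded holomorphic functions is
differentiable -/
theorem lim_diff [FiniteDimensional ℂ E] {ι : Type*} {𝒰 : Ultrafilter ι} {F : ι → E → ℂ}
    {f : E → ℂ} {p : E} {ρ M : ℝ} (hρ : 0 < ρ) (hM : 0 < M)
    (hF : ∀ᶠ y in (𝒰 : Filter ι), DifferentiableOn ℂ (F y) (ball p ρ) ∧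
      ∀ q ∈ ball p ρ, ‖F y q‖ ≤ M)
    (hl : ∀ q ∈ ball p ρ, Tendsto (fun y => F y q) 𝒰 (𝓝 (f q))) : DifferentiableAt ℂ f p := by
  haveI : ProperSpace (E →L[ℂ] ℂ) := FiniteDimensional.proper_rclike ℂ _
  have hK : IsCompact (closedBall (0 : E →L[ℂ] ℂ) (3 * M / ρ)) := isCompact_closedBall _ _
  have hev : ∀ᶠ y in (𝒰 : Filter ι), fderiv ℂ (F y) p ∈ closedBall (0 : E →L[ℂ] ℂ) (3 * M / ρ) := by
    filter_upwards [hF] with y hy
    rw [mem_closedBall_zero_iff]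
    exact ContinuousLinearMap.opNorm_le_bound _ (by positivity)
      fun h => (taylor_E hρ hM hy.1 hy.2 h).1
  obtain ⟨A, -, hA⟩ := hK.ultrafilter_le_nhds (𝒰.map fun y => fderiv ℂ (F y) p)
    (by rw [le_principal_iff]; exact hev)
  have hA' : Tendsto (fun y => fderiv ℂ (F y) p) 𝒰 (𝓝 A) := hA
  have hkey : ∀ h : E, ‖h‖ < ρ → ‖f (p + h) - f p - A h‖ ≤ 7 * M / ρ ^ 2 * ‖h‖ ^ 2 := by
    intro h hh
    have hq : p + h ∈ ball p ρ := by rw [mem_ball, dist_eq_norm, add_sub_cancel_left]; exact hh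
    have ht : Tendsto (fun y => ‖F y (p + h) - F y p - fderiv ℂ (F y) p h‖) 𝒰
        (𝓝 ‖f (p + h) - f p - A h‖) := by
      have e1 : Tendsto (fun y => fderiv ℂ (F y) p h) 𝒰 (𝓝 (A h)) :=
        ((ContinuousLinearMap.apply ℂ ℂ h).continuous.tendsto A).comp hA'
      exact (((hl _ hq).sub (hl _ (mem_ball_self hρ))).sub e1).norm
    refine le_of_tendsto ht ?_
    filter_upwards [hF] with y hy
    exact (taylor_E hρ hM hy.1 hy.2 h).2 hh
  have hO : (fun h => f (p + h) - f p - A h) =O[𝓝 0] fun h : E => ‖h‖ ^ 2 := by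
    refine Asymptotics.IsBigO.of_bound (7 * M / ρ ^ 2) ?_
    filter_upwards [ball_mem_nhds (0 : E) hρ] with h hh
    rw [mem_ball_zero_iff] at hh
    simpa using hkey h hh
  have hder : HasFDerivAt f A p := by
    rw [hasFDerivAt_iff_isLittleO_nhds_zero]
    exact hO.trans_isLittleO (Asymptotics.isLittleO_norm_pow_id one_lt_two)
  exact hder.differentiableAt

end Vale.Agent.P097.H133
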