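import Vale.Agent.P097.H536.Defs

/-! # P097 / TRIG-T6, part b: the bounce law near a zero of the radius of curvature -/

set_option linter.all false

open Complex Metric Filter Topology Set

namespace Vale.Agent.P097.H133

open Vale.Agent.P097.H202 Vale.Agent.P097.H536

theorem hasDerivAt_Kc {H : ℂ → ℂ} (hH : Differentiable ℂ H) (a ψ : ℂ) :
    HasDerivAt (fun x => Kc H a x) ((H ψ + deriv (deriv H) ψ) * Complex.sin (a - ψ)) ψ := by
  have hH' : Differentiable ℂ (deriv H) := fun z =>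
    ((hH.analyticAt z).deriv).differentiableAt
  have h1 := (hH ψ).hasDerivAt
  have h2 := (hH' ψ).hasDerivAt
  have h3 := (Complex.hasDerivAt_cos (ψ - a)).comp ψ ((hasDerivAt_id ψ).sub_const a)
  have h4 := (Complex.hasDerivAt_sin (ψ - a)).comp ψ ((hasDerivAt_id ψ).sub_const a)
  have h5 := (h1.mul h3).sub (h2.mul h4)
  refine h5.congr_deriv ?_
  have e : a - ψ = -(ψ - a) := by ring
  rw [e, Complex.sin_neg]
  simp only [Function.comp, id]
  ring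

/-- `sin (τ x) / τ`, jointly continuous -/
noncomputable def Sc (τ x : ℂ) : ℂ := x * dslope Complex.sin 0 (τ * x)

theorem Sc_mul (τ x : ℂ) : τ * Sc τ x = Complex.sin (τ * x) := by
  have := sub_smul_dslope Complex.sin 0 (τ * x)
  rw [sub_zero, smul_eq_mul, Complex.sin_zero, sub_zero] at this
  rw [Sc, ← mul_assoc, this]

theorem Sc_zero (x : ℂ) : Sc 0 x = x := by
  rw [Sc, zero_mul, dslope_same, (Complex.hasDerivAt_sin 0).deriv, Complex.cos_zero, mul_one]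

theorem continuous_dslope_sin : Continuous (dslope Complex.sin 0) := by
  rw [continuous_iff_continuousAt]
  intro z
  rcases eq_or_ne z 0 with rfl | hz
  · exact continuousAt_dslope_same.2 Complex.differentiable_sin.differentiableAt
  · exact (continuousAt_dslope_of_ne hz).2 Complex.continuous_sin.continuousAt

/-- integrand after blow-up -/
noncomputable def FF (n : ℕ) (R₁ : ℂ → ℂ) (ψ₀ τ k η : ℂ) : ℂ :=
  η ^ (n - 1) * R₁ (ψ₀ + τ * η) * Sc τ (k - η)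

/-- blown up difference of the functional -/
noncomputable def PP (n : ℕ) (R₁ : ℂ → ℂ) (ψ₀ : ℂ) (q : ℂ × ℂ × ℂ × ℂ) : ℂ :=
  (q.2.2.2 - q.2.2.1) * ∫ s in (0 : ℝ)..1, FF n R₁ ψ₀ q.1 q.2.1 (q.2.2.1 + s * (q.2.2.2 - q.2.2.1))

theorem continuous_FF {n : ℕ} {R₁ : ℂ → ℂ} (hR : Continuous R₁) (ψ₀ : ℂ) :
    Continuous fun q : ℂ × ℂ × ℂ => FF n R₁ ψ₀ q.1 q.2.1 q.2.2 := by
  unfold FF Sc
  have := continuous_dslope_sin
  fun_prop

theorem continuous_PP {n : ℕ} {R₁ : ℂ → ℂ} (hR : Continuous R₁) (ψ₀ : ℂ) :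
    Continuous (PP n R₁ ψ₀) := by
  unfold PP
  refine Continuous.mul (by fun_prop) ?_
  refine intervalIntegral.continuous_parametric_intervalIntegral_of_continuous'
    (f := fun (q : ℂ × ℂ × ℂ × ℂ) (s : ℝ) =>
      FF n R₁ ψ₀ q.1 q.2.1 (q.2.2.1 + s * (q.2.2.2 - q.2.2.1))) ?_ 0 1
  exact (continuous_FF hR ψ₀).comp (g := fun q : ℂ × ℂ × ℂ => FF n R₁ ψ₀ q.1 q.2.1 q.2.2)
    (f := fun x : (ℂ × ℂ × ℂ × ℂ) × ℝ =>
      (x.1.1, x.1.2.1, x.1.2.2.1 + (x.2 : ℂ) * (x.1.2.2.2 - x.1.2.2.1))) (by fun_prop)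

theorem segment_int {f f' : ℂ → ℂ} (hf : ∀ z, HasDerivAt f (f' z) z) (hc : Continuous f')
    (a b : ℂ) : f b - f a = (b - a) * ∫ s in (0 : ℝ)..1, f' (a + s * (b - a)) := by
  have h1 : ∀ s : ℝ, HasDerivAt (fun s : ℝ => f (a + s * (b - a)))
      ((b - a) * f' (a + s * (b - a))) s := by
    intro s
    have h2 : HasDerivAt (fun s : ℝ => a + (s : ℂ) * (b - a)) (b - a) s := by
      have h3 := ((hasDerivAt_id (s : ℂ)).mul_const (b - a)).const_add a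
      simpa using h3.comp_ofReal
    have h4 := (hf (a + s * (b - a))).scomp s h2
    simpa [smul_eq_mul, Function.comp_def] using h4
  have h5 := intervalIntegral.integral_eq_sub_of_hasDerivAt (a := 0) (b := 1)
    (fun s _ => h1 s) (by
      apply Continuous.intervalIntegrable
      fun_prop)
  rw [intervalIntegral.integral_const_mul] at h5
  rw [h5]
  simp

/-- the bounce expression is `τ ^ (n + 1) PP` -/
theorem Kc_sub {H R₁ : ℂ → ℂ} {n : ℕ} {ψ₀ : ℂ} (hn : 1 ≤ n) (hH : Differentiable ℂ H)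
    (hfac : ∀ ξ, H ξ + deriv (deriv H) ξ = (ξ - ψ₀) ^ (n - 1) * R₁ ξ) (τ k a b : ℂ) :
    Kc H (ψ₀ + τ * k) (ψ₀ + τ * b) - Kc H (ψ₀ + τ * k) (ψ₀ + τ * a)
      = τ ^ (n + 1) * PP n R₁ ψ₀ (τ, k, a, b) := by
  have hH' : Differentiable ℂ (deriv H) := fun z =>
    ((hH.analyticAt z).deriv).differentiableAt
  have hH'' : Differentiable ℂ (deriv (deriv H)) := fun z =>
    ((hH'.analyticAt z).deriv).differentiableAt
  have hc : Continuous fun ψ => (H ψ + deriv (deriv H) ψ) * Complex.sin (ψ₀ + τ * k - ψ) :=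
    (hH.continuous.add hH''.continuous).mul (Complex.continuous_sin.comp (by fun_prop))
  rw [segment_int (fun z => hasDerivAt_Kc hH (ψ₀ + τ * k) z) hc]
  have e1 : ∀ s : ℝ, (H (ψ₀ + τ * a + s * (ψ₀ + τ * b - (ψ₀ + τ * a)))
      + deriv (deriv H) (ψ₀ + τ * a + s * (ψ₀ + τ * b - (ψ₀ + τ * a))))
      * Complex.sin (ψ₀ + τ * k - (ψ₀ + τ * a + s * (ψ₀ + τ * b - (ψ₀ + τ * a))))
      = τ ^ n * FF n R₁ ψ₀ τ k (a + s * (b - a)) := by
    intro s
    have e2 : ψ₀ + τ * a + s * (ψ₀ + τ * b - (ψ₀ + τ * a)) = ψ₀ + τ * (a + s * (b - a)) := by ring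
    have e3 : ψ₀ + τ * k - (ψ₀ + τ * (a + s * (b - a))) = τ * (k - (a + s * (b - a))) := by ring
    rw [e2, hfac, e3, ← Sc_mul, FF, add_sub_cancel_left, mul_pow]
    have e4 : τ ^ n = τ ^ (n - 1) * τ := by
      rw [← pow_succ, Nat.sub_add_cancel hn]
    rw [e4]
    ring
  rw [intervalIntegral.integral_congr (g := fun s : ℝ => τ ^ n * FF n R₁ ψ₀ τ k (a + s * (b - a)))
    (fun s _ => e1 s), intervalIntegral.integral_const_mul, PP]
  ring

/-- the limit model -/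
theorem PP_zero {R₁ : ℂ → ℂ} {n : ℕ} {ψ₀ : ℂ} (hn : 1 ≤ n) (k a b : ℂ) :
    PP n R₁ ψ₀ (0, k, a, b) = R₁ ψ₀ * (Nf n k b - Nf n k a) := by
  have hd : ∀ z, HasDerivAt (fun v => Nf n k v) (z ^ (n - 1) * (k - z)) z := by
    intro z
    have h1 := ((hasDerivAt_pow n z).const_mul k).div_const (n : ℂ)
    have h2 := (hasDerivAt_pow (n + 1) z).div_const ((n : ℂ) + 1)
    refine (h1.sub h2).congr_deriv ?_
    have hn0 : (n : ℂ) ≠ 0 := by
      have : n ≠ 0 := by omega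
      exact_mod_cast this
    have hn1 : (n : ℂ) + 1 ≠ 0 := by exact_mod_cast Nat.succ_ne_zero n
    have e4 : z ^ n = z ^ (n - 1) * z := by rw [← pow_succ, Nat.sub_add_cancel hn]
    rw [Nat.add_sub_cancel]
    push_cast
    rw [e4]
    field_simp
  rw [segment_int hd (by fun_prop)]
  simp only [PP, FF, zero_mul, add_zero, Sc_zero]
  have : ∀ s : ℝ, (a + s * (b - a)) ^ (n - 1) * R₁ ψ₀ * (k - (a + s * (b - a)))
      = R₁ ψ₀ * ((a + s * (b - a)) ^ (n - 1) * (k - (a + s * (b - a)))) := fun s => by ring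
  rw [intervalIntegral.integral_congr (g := fun s : ℝ => R₁ ψ₀ *
    ((a + s * (b - a)) ^ (n - 1) * (k - (a + s * (b - a))))) (fun s _ => this s),
    intervalIntegral.integral_const_mul]
  ring

/-- limit of the bounce law -/
theorem Mf_limit {ι : Type*} {l : Filter ι} [l.NeBot] {H R₁ : ℂ → ℂ} {n : ℕ} {ψ₀ : ℂ} (hn : 1 ≤ n)
    (hH : Differentiable ℂ H)
    (hfac : ∀ ξ, H ξ + deriv (deriv H) ξ = (ξ - ψ₀) ^ (n - 1) * R₁ ξ) (hR : Differentiable ℂ R₁)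
    (hR0 : R₁ ψ₀ ≠ 0) {τ km k kp : ι → ℂ} {xm x xp : ℂ} (hτ : Tendsto τ l (𝓝 0))
    (hτ0 : ∀ᶠ y in l, τ y ≠ 0) (h1 : Tendsto km l (𝓝 xm)) (h2 : Tendsto k l (𝓝 x))
    (h3 : Tendsto kp l (𝓝 xp))
    (hel : ∀ᶠ y in l, Kc H (ψ₀ + τ y * k y) ((ψ₀ + τ y * km y + (ψ₀ + τ y * k y)) / 2)
      = Kc H (ψ₀ + τ y * k y) ((ψ₀ + τ y * k y + (ψ₀ + τ y * kp y)) / 2)) :
    Mf n xm x xp = 0 := by
  have ht : Tendsto (fun y => PP n R₁ ψ₀ (τ y, k y, (km y + k y) / 2, (k y + kp y) / 2)) l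
      (𝓝 (PP n R₁ ψ₀ (0, x, (xm + x) / 2, (x + xp) / 2))) := by
    refine ((continuous_PP hR.continuous ψ₀).tendsto _).comp ?_
    exact hτ.prodMk_nhds (h2.prodMk_nhds (((h1.add h2).div_const 2).prodMk_nhds
      ((h2.add h3).div_const 2)))
  have hz : ∀ᶠ y in l, PP n R₁ ψ₀ (τ y, k y, (km y + k y) / 2, (k y + kp y) / 2) = 0 := by
    filter_upwards [hτ0, hel] with y hy hy2
    have e := Kc_sub hn hH hfac (τ y) (k y) ((km y + k y) / 2) ((k y + kp y) / 2)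
    have e1 : ψ₀ + τ y * ((km y + k y) / 2) = (ψ₀ + τ y * km y + (ψ₀ + τ y * k y)) / 2 := by ring
    have e2 : ψ₀ + τ y * ((k y + kp y) / 2) = (ψ₀ + τ y * k y + (ψ₀ + τ y * kp y)) / 2 := by ring
    rw [e1, e2, hy2, sub_self] at e
    have e3 : τ y ^ (n + 1) ≠ 0 := pow_ne_zero _ hy
    exact (mul_eq_zero.1 e.symm).resolve_left e3
  have h0 : PP n R₁ ψ₀ (0, x, (xm + x) / 2, (x + xp) / 2) = 0 :=
    tendsto_nhds_unique (ht.congr' (by filter_upwards [hz] with y hy; exact hy)) tendsto_const_nhds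
  rw [PP_zero hn] at h0
  exact (mul_eq_zero.1 h0).resolve_left hR0

end Vale.Agent.P097.H133
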