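import Vale.Agent.P097.H133.T6a
import Vale.Agent.P097.H133.T6b

/-! # P097 / TRIG-T6: blow-up at a cusp end -/

set_option linter.all false

open Complex Metric Filter Topology Set

namespace Vale.Agent.P097.H133

open Vale.Agent.P097.TA Vale.Agent.P097.H202 Vale.Agent.P097.H536

/-- the rescaled family -/
noncomputable def zz (θ : ℂ → ℂ → ℂ) (β : ℂ) (y : ℝ) (p : ℂ × ℂ) : ℂ :=
  I * (θ (β - I * y * p.1) (-(I * y * p.2)) - β) / y

theorem im_pt {β : ℂ} {Y y : ℝ} (hβ : β.im = Y) (s : ℂ) : (β - I * y * s).im = Y - y * s.re := by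
  simp [Complex.mul_im, Complex.mul_re, hβ]

theorem pt_cone {β u s : ℂ} {Y c y : ℝ} (hβ : β.im = Y) (hy : 0 < y) (hs : 0 < s.re)
    (hyY : y * s.re < Y) (hu : ‖u‖ < c * s.re) :
    (β - I * y * s, -(I * y * u)) ∈ Cone Y c ∧ Y - |(β - I * y * s).im| = y * s.re := by
  have h1 : Y - |(β - I * y * s).im| = y * s.re := by
    rw [im_pt hβ, abs_of_pos (by linarith)]
    ring
  refine ⟨?_, h1⟩
  show ‖-(I * y * u)‖ < c * (Y - |(β - I * y * s).im|)
  rw [h1, norm_neg, norm_mul, norm_mul, Complex.norm_I, one_mul, Complex.norm_real,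
    Real.norm_of_nonneg hy.le]
  calc y * ‖u‖ < y * (c * s.re) := mul_lt_mul_of_pos_left hu hy
    _ = c * (y * s.re) := by ring

theorem HP_re {c : ℝ} (hc : 0 < c) {p : ℂ × ℂ} (hp : p ∈ HP c) : 0 < p.1.re := by
  have h1 : ‖p.2‖ < c * p.1.re := hp
  have h2 : 0 < c * p.1.re := lt_of_le_of_lt (norm_nonneg _) h1
  exact (mul_pos_iff_of_pos_left hc).1 h2

theorem isOpen_HP (c : ℝ) : IsOpen (HP c) := by
  refine isOpen_lt (by fun_prop) ?_
  exact continuous_const.mul (Complex.continuous_re.comp continuous_fst)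

section
variable {θ : ℂ → ℂ → ℂ} {Y c K : ℝ} {β : ℂ}

theorem zz_bd (hF : FamC Y c K θ) (hβ : β.im = Y) {y : ℝ} {p : ℂ × ℂ} (hp : p ∈ HP c)
    (hy : 0 < y) (hyY : y * p.1.re < Y) :
    ‖zz θ β y p - p.1‖ * p.1.re ≤ K * ‖p.2‖ ^ 2 := by
  have hs := HP_re hF.hc hp
  obtain ⟨h1, h2⟩ := pt_cone hβ hy hs hyY hp
  have h3 := hF.bd _ _ h1
  rw [h2, norm_neg, norm_mul, norm_mul, Complex.norm_I, one_mul, Complex.norm_real,
    Real.norm_of_nonneg hy.le] at h3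
  have hy0 : (y : ℂ) ≠ 0 := by exact_mod_cast hy.ne'
  have e1 : zz θ β y p - p.1
      = I * (θ (β - I * y * p.1) (-(I * y * p.2)) - (β - I * y * p.1)) / y := by
    have hI : I * I = -1 := Complex.I_mul_I
    rw [zz, eq_div_iff hy0, sub_mul, div_mul_cancel₀ _ hy0]
    linear_combination (-(y : ℂ) * p.1) * hI
  rw [e1, norm_div, norm_mul, Complex.norm_I, one_mul, Complex.norm_real,
    Real.norm_of_nonneg hy.le]
  have h4 : ‖θ (β - I * y * p.1) (-(I * y * p.2)) - (β - I * y * p.1)‖ / y * p.1.re * y ^ 2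
      ≤ K * ‖p.2‖ ^ 2 * y ^ 2 := by
    calc ‖θ (β - I * y * p.1) (-(I * y * p.2)) - (β - I * y * p.1)‖ / y * p.1.re * y ^ 2
        = ‖θ (β - I * y * p.1) (-(I * y * p.2)) - (β - I * y * p.1)‖ * (y * p.1.re) := by
          field_simp
      _ ≤ K * (y * ‖p.2‖) ^ 2 := h3
      _ = K * ‖p.2‖ ^ 2 * y ^ 2 := by ring
  exact le_of_mul_le_mul_right h4 (by positivity)

theorem zz_bd' (hF : FamC Y c K θ) (hβ : β.im = Y) {y : ℝ} {p : ℂ × ℂ} (hp : p ∈ HP c)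
    (hy : 0 < y) (hyY : y * p.1.re < Y) : ‖zz θ β y p - p.1‖ ≤ K * c * ‖p.2‖ := by
  have hs := HP_re hF.hc hp
  have h1 := zz_bd hF hβ hp hy hyY
  have h2 : ‖p.2‖ ≤ c * p.1.re := le_of_lt hp
  have h3 : K * ‖p.2‖ ^ 2 ≤ K * c * ‖p.2‖ * p.1.re := by
    have : K * ‖p.2‖ * ‖p.2‖ ≤ K * ‖p.2‖ * (c * p.1.re) :=
      mul_le_mul_of_nonneg_left h2 (mul_nonneg hF.hK (norm_nonneg _))
    nlinarith
  exact le_of_mul_le_mul_right (h1.trans h3) hs

theorem zz_diff (hF : FamC Y c K θ) (hβ : β.im = Y) {y : ℝ} {S : Set (ℂ × ℂ)} (hS : S ⊆ HP c)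
    (hy : 0 < y) (hyY : ∀ p ∈ S, y * p.1.re < Y) : DifferentiableOn ℂ (zz θ β y) S := by
  have h1 : DifferentiableOn ℂ
      (fun p : ℂ × ℂ => θ (β - I * y * p.1) (-(I * y * p.2))) S := by
    refine hF.hol.comp (t := Cone Y c)
      (f := fun p : ℂ × ℂ => (β - I * y * p.1, -(I * y * p.2))) ?_ ?_
    · fun_prop
    · intro p hp
      exact (pt_cone hβ hy (HP_re hF.hc (hS hp)) (hyY p hp) (hS hp)).1
  have h2 := ((h1.sub_const β).const_mul I).mul_const ((y : ℂ)⁻¹)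
  refine h2.congr fun p _ => ?_
  simp only [zz, div_eq_mul_inv]

/-- the ultrafilter -/
noncomputable def UU : Ultrafilter ℝ := Ultrafilter.of (𝓝[>] (0 : ℝ))

theorem UU_le : (UU : Filter ℝ) ≤ 𝓝[>] (0 : ℝ) := Ultrafilter.of_le _

theorem ev_small {B : ℝ} (hY : 0 < Y) : ∀ᶠ y in (UU : Filter ℝ), 0 < y ∧ y * B < Y := by
  refine UU_le ?_
  have h1 : Tendsto (fun y : ℝ => y * B) (𝓝[>] 0) (𝓝 0) := by
    have : Tendsto (fun y : ℝ => y * B) (𝓝 0) (𝓝 (0 * B)) := tendsto_id.mul_const B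
    rw [zero_mul] at this
    exact this.mono_left nhdsWithin_le_nhds
  filter_upwards [self_mem_nhdsWithin, h1.eventually (gt_mem_nhds hY)] with y hy hy2
  exact ⟨hy, hy2⟩

theorem UU_zero : Tendsto (fun y : ℝ => (y : ℂ)) UU (𝓝 0) := by
  have h : Tendsto (fun y : ℝ => (y : ℂ)) (𝓝 0) (𝓝 ((0 : ℝ) : ℂ)) :=
    Complex.continuous_ofReal.tendsto 0
  rw [Complex.ofReal_zero] at h
  exact h.mono_left (UU_le.trans nhdsWithin_le_nhds)

/-- the limit family -/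
noncomputable def zl (θ : ℂ → ℂ → ℂ) (β : ℂ) (s u : ℂ) : ℂ :=
  limUnder (UU : Filter ℝ) fun y => zz θ β y (s, u)

theorem zl_tendsto (hF : FamC Y c K θ) (hβ : β.im = Y) {p : ℂ × ℂ} (hp : p ∈ HP c) :
    Tendsto (fun y => zz θ β y p) UU (𝓝 (zl θ β p.1 p.2)) := by
  have hev : ∀ᶠ y in (UU : Filter ℝ), zz θ β y p ∈ closedBall p.1 (K * c * ‖p.2‖) := by
    filter_upwards [ev_small (B := p.1.re) hF.hY] with y hy
    rw [mem_closedBall, dist_eq_norm]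
    exact zz_bd' hF hβ hp hy.1 hy.2
  obtain ⟨x, -, hx⟩ := (isCompact_closedBall p.1 (K * c * ‖p.2‖)).ultrafilter_le_nhds
    (UU.map fun y => zz θ β y p) (by rw [le_principal_iff]; exact hev)
  exact tendsto_nhds_limUnder ⟨x, hx⟩

theorem zl_diff (hF : FamC Y c K θ) (hβ : β.im = Y) {p : ℂ × ℂ} (hp : p ∈ HP c) :
    DifferentiableAt ℂ (fun q : ℂ × ℂ => zl θ β q.1 q.2) p := by
  obtain ⟨ρ, hρ, hsub⟩ := Metric.isOpen_iff.1 (isOpen_HP c) p hp
  have hKc : 0 ≤ K * c := mul_nonneg hF.hK hF.hc.le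
  refine lim_diff (𝒰 := UU) (F := fun y => zz θ β y) (ρ := ρ)
    (M := ‖p.1‖ + ρ + K * c * (‖p.2‖ + ρ) + 1) hρ (by positivity) ?_ ?_
  · filter_upwards [ev_small (B := p.1.re + ρ) hF.hY] with y hy
    have hq : ∀ q ∈ ball p ρ, ‖q.1 - p.1‖ < ρ ∧ ‖q.2 - p.2‖ < ρ := by
      intro q hq
      rw [mem_ball, dist_eq_norm] at hq
      exact ⟨lt_of_le_of_lt (norm_fst_le (q - p)) hq, lt_of_le_of_lt (norm_snd_le (q - p)) hq⟩
    have hsm : ∀ q ∈ ball p ρ, y * q.1.re < Y := by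
      intro q hqq
      have h1 := (hq q hqq).1
      have h2 : q.1.re - p.1.re ≤ ‖q.1 - p.1‖ := by
        rw [← Complex.sub_re]; exact Complex.re_le_norm _
      have h3 : y * q.1.re ≤ y * (p.1.re + ρ) := mul_le_mul_of_nonneg_left (by linarith) hy.1.le
      linarith [hy.2]
    refine ⟨zz_diff hF hβ hsub hy.1 hsm, fun q hqq => ?_⟩
    have h4 := zz_bd' hF hβ (hsub hqq) hy.1 (hsm q hqq)
    have h5 : ‖zz θ β y q‖ ≤ ‖zz θ β y q - q.1‖ + ‖q.1‖ := by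
      have := norm_add_le (zz θ β y q - q.1) q.1
      rwa [sub_add_cancel] at this
    have h6 : ‖q.1‖ ≤ ‖p.1‖ + ρ := by
      have := norm_add_le (q.1 - p.1) p.1
      rw [sub_add_cancel] at this
      linarith [(hq q hqq).1]
    have h7 : ‖q.2‖ ≤ ‖p.2‖ + ρ := by
      have := norm_add_le (q.2 - p.2) p.2
      rw [sub_add_cancel] at this
      linarith [(hq q hqq).2]
    have h8 : K * c * ‖q.2‖ ≤ K * c * (‖p.2‖ + ρ) := mul_le_mul_of_nonneg_left h7 hKc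
    linarith
  · intro q hq
    exact zl_tendsto hF hβ (hsub hq)

theorem zl_bd (hF : FamC Y c K θ) (hβ : β.im = Y) {p : ℂ × ℂ} (hp : p ∈ HP c) :
    ‖zl θ β p.1 p.2 - p.1‖ * p.1.re ≤ K * ‖p.2‖ ^ 2 := by
  refine le_of_tendsto (((zl_tendsto hF hβ hp).sub_const p.1).norm.mul_const p.1.re) ?_
  filter_upwards [ev_small (B := p.1.re) hF.hY] with y hy
  exact zz_bd hF hβ hp hy.1 hy.2

theorem re_big {s u z : ℂ} {K c' : ℝ} (hK : 0 ≤ K) (hs : 0 < s.re) (hu : ‖u‖ < c' * s.re)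
    (hKc : K * c' ^ 2 ≤ 1 / 4) (h : ‖z - s‖ * s.re ≤ K * ‖u‖ ^ 2) : 3 / 4 * s.re ≤ z.re := by
  have h1 : ‖u‖ ^ 2 ≤ (c' * s.re) ^ 2 := by
    have := norm_nonneg u
    nlinarith
  have h2 : ‖z - s‖ * s.re ≤ 1 / 4 * s.re * s.re := by
    calc ‖z - s‖ * s.re ≤ K * ‖u‖ ^ 2 := h
      _ ≤ K * (c' * s.re) ^ 2 := mul_le_mul_of_nonneg_left h1 hK
      _ = K * c' ^ 2 * (s.re * s.re) := by ring
      _ ≤ 1 / 4 * (s.re * s.re) := mul_le_mul_of_nonneg_right hKc (by positivity)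
      _ = 1 / 4 * s.re * s.re := by ring
  have h3 : ‖z - s‖ ≤ 1 / 4 * s.re := le_of_mul_le_mul_right h2 hs
  have h4 : s.re - z.re ≤ ‖z - s‖ := by
    have := Complex.abs_re_le_norm (z - s)
    rw [Complex.sub_re] at this
    have := abs_le.1 this
    linarith [this.1]
  linarith

end

theorem ofReal_mul_cpow {y : ℝ} (hy : 0 < y) {z : ℂ} (hz : z ≠ 0) (m : ℂ) :
    ((y : ℂ) * z) ^ m = (y : ℂ) ^ m * z ^ m := by
  have hy0 : (y : ℂ) ≠ 0 := by exact_mod_cast hy.ne'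
  rw [Complex.cpow_def_of_ne_zero (mul_ne_zero hy0 hz), Complex.cpow_def_of_ne_zero hy0,
    Complex.cpow_def_of_ne_zero hz, Complex.log_ofReal_mul hy hz, ← Complex.exp_add,
    ← Complex.ofReal_log hy.le]
  ring_nf

theorem mu_eq (n : ℕ) : mu n = (((3 : ℝ) / (n + 2) : ℝ) : ℂ) := by
  rw [mu]; push_cast; rfl

theorem tau_zero (n : ℕ) (C₀ : ℂ) : Tendsto (fun y : ℝ => C₀ * (y : ℂ) ^ mu n) UU (𝓝 0) := by
  have h1 : Tendsto (fun y : ℝ => C₀ * (((y ^ ((3 : ℝ) / (n + 2)) : ℝ)) : ℂ)) (𝓝 0) (𝓝 0) := by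
    have h2 : ContinuousAt (fun y : ℝ => y ^ ((3 : ℝ) / (n + 2))) 0 :=
      Real.continuousAt_rpow_const 0 _ (Or.inr (by positivity))
    have h3 : Tendsto (fun y : ℝ => y ^ ((3 : ℝ) / (n + 2))) (𝓝 0) (𝓝 0) := by
      have := h2.tendsto
      rwa [Real.zero_rpow (by positivity)] at this
    have h4 := ((Complex.continuous_ofReal.tendsto 0).comp h3).const_mul C₀
    simpa using h4
  have h5 : Tendsto (fun y : ℝ => C₀ * (((y ^ ((3 : ℝ) / (n + 2)) : ℝ)) : ℂ)) UU (𝓝 0) :=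
    h1.mono_left (UU_le.trans nhdsWithin_le_nhds)
  refine h5.congr' ?_
  filter_upwards [ev_small (Y := 1) (B := 0) one_pos] with y hy
  rw [mu_eq, Complex.ofReal_cpow hy.1.le]

section
variable {θ : ℂ → ℂ → ℂ} {Y c K : ℝ} {β : ℂ}

/-- behaviour of the angle along the rescaled family -/
theorem phi_lim {H Φ : ℂ → ℂ} {n : ℕ} {ψ₀ C₀ : ℂ} {c' : ℝ} (hF : FamC Y c K θ) (hβ : β.im = Y)
    (hc' : 0 < c') (hcc : c' ≤ c) (hKc : K * c' ^ 2 ≤ 1 / 4) (hC : C₀ ≠ 0)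
    (hlim : Tendsto (fun x : ℂ => (Φ x - ψ₀) / (I * (x - β)) ^ mu n) (𝓝[Str Y] β) (𝓝 C₀))
    {p : ℂ × ℂ} (hp : p ∈ HP c') :
    (∀ᶠ y : ℝ in (UU : Filter ℝ), θ (β - I * y * p.1) (-(I * y * p.2)) ∈ Str Y) ∧
    Tendsto (fun y : ℝ => (Φ (θ (β - I * y * p.1) (-(I * y * p.2))) - ψ₀) / (C₀ * (y : ℂ) ^ mu n))
      UU (𝓝 (zl θ β p.1 p.2 ^ mu n)) := by
  have hs := HP_re hc' hp
  have hpc : p ∈ HP c := lt_of_lt_of_le hp (mul_le_mul_of_nonneg_right hcc hs.le)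
  have ht := zl_tendsto hF hβ hpc
  have hrel : ∀ y : ℝ, 0 < y → θ (β - I * y * p.1) (-(I * y * p.2)) = β - I * (y * zz θ β y p) := by
    intro y hy
    have hy0 : (y : ℂ) ≠ 0 := by exact_mod_cast hy.ne'
    rw [zz, mul_div_cancel₀ _ hy0]
    have hI : I * I = -1 := Complex.I_mul_I
    linear_combination (θ (β - I * y * p.1) (-(I * y * p.2)) - β) * hI
  have hyz : Tendsto (fun y : ℝ => (y : ℂ) * zz θ β y p) UU (𝓝 0) := by
    have := UU_zero.mul ht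
    rwa [zero_mul] at this
  have hstr : ∀ᶠ y : ℝ in (UU : Filter ℝ), θ (β - I * y * p.1) (-(I * y * p.2)) ∈ Str Y := by
    have h1 : ∀ᶠ y : ℝ in (UU : Filter ℝ), ‖(y : ℂ) * zz θ β y p‖ < Y :=
      (hyz.norm.eventually (gt_mem_nhds (by rw [norm_zero]; exact hF.hY)))
    filter_upwards [ev_small (B := p.1.re) hF.hY, h1] with y hy hy1
    have h2 := re_big hF.hK hs hp hKc (zz_bd hF hβ hpc hy.1 hy.2)
    have h3 : 0 < (zz θ β y p).re := by linarith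
    have h4 : ((y : ℂ) * zz θ β y p).re = y * (zz θ β y p).re := by simp
    have h5 : y * (zz θ β y p).re < Y := by
      rw [← h4]; exact lt_of_le_of_lt (Complex.re_le_norm _) hy1
    have h6 : 0 < y * (zz θ β y p).re := mul_pos hy.1 h3
    rw [hrel y hy.1]
    show |(β - I * (y * zz θ β y p)).im| < Y
    have h7 : (β - I * (y * zz θ β y p)).im = Y - y * (zz θ β y p).re := by
      simp [Complex.mul_im, Complex.mul_re, hβ]
    rw [h7, abs_lt]
    constructor <;> linarith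
  refine ⟨hstr, ?_⟩
  have hθ : Tendsto (fun y : ℝ => θ (β - I * y * p.1) (-(I * y * p.2))) UU (𝓝[Str Y] β) := by
    refine tendsto_nhdsWithin_iff.2 ⟨?_, hstr⟩
    have h1 : Tendsto (fun y : ℝ => β - I * ((y : ℂ) * zz θ β y p)) UU (𝓝 β) := by
      have := (hyz.const_mul I).const_sub β
      rwa [mul_zero, sub_zero] at this
    refine h1.congr' ?_
    filter_upwards [ev_small (Y := 1) (B := 0) one_pos] with y hy
    exact (hrel y hy.1).symm
  have hzre : 3 / 4 * p.1.re ≤ (zl θ β p.1 p.2).re :=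
    re_big hF.hK hs hp hKc (zl_bd hF hβ hpc)
  have hzp : Tendsto (fun y : ℝ => zz θ β y p ^ mu n) UU (𝓝 (zl θ β p.1 p.2 ^ mu n)) := by
    refine (continuousAt_cpow_const ?_).tendsto.comp ht
    exact Or.inl (by linarith)
  have hq := ((hlim.comp hθ).mul hzp).div_const C₀
  rw [mul_div_cancel_left₀ _ hC] at hq
  refine hq.congr' ?_
  filter_upwards [ev_small (B := p.1.re) hF.hY] with y hy
  have h2 := re_big hF.hK hs hp hKc (zz_bd hF hβ hpc hy.1 hy.2)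
  have hz0 : zz θ β y p ≠ 0 := by
    intro h
    rw [h, Complex.zero_re] at h2
    linarith
  have hy0 : (y : ℂ) ≠ 0 := by exact_mod_cast hy.1.ne'
  have e1 : I * (θ (β - I * y * p.1) (-(I * y * p.2)) - β) = y * zz θ β y p := by
    rw [zz, mul_div_cancel₀ _ hy0]
  simp only [Function.comp]
  rw [e1, ofReal_mul_cpow hy.1 hz0]
  have h8 : (y : ℂ) ^ mu n ≠ 0 := by
    rw [Complex.cpow_def_of_ne_zero hy0]; exact Complex.exp_ne_zero _
  have h9 : zz θ β y p ^ mu n ≠ 0 := by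
    rw [Complex.cpow_def_of_ne_zero hz0]; exact Complex.exp_ne_zero _
  field_simp

end

/-- TRIG-T6: blow-up at a cusp end -/
theorem t6 : T6 := by
  intro H Φ Λ Y C n β ψ₀ c K θ hH hS hE hF hEL
  obtain ⟨hn, hβ, ⟨R₁, hR₁, hR0, hfac⟩, ⟨C₀, hC₀, hlim⟩⟩ := hE
  have hK := hF.hK
  have hc := hF.hc
  set c' : ℝ := min c (1 / (2 * (K + 1))) with hc'def
  have hc'0 : 0 < c' := lt_min hc (by positivity)
  have hcc : c' ≤ c := min_le_left _ _
  have hc2 : c' ≤ 1 / (2 * (K + 1)) := min_le_right _ _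
  have hc1 : c' ≤ 1 / 2 := by
    refine hc2.trans ?_
    rw [div_le_div_iff₀ (by positivity) (by norm_num)]
    linarith
  have hKc : K * c' ^ 2 ≤ 1 / 4 := by
    have h1 : c' ^ 2 ≤ (1 / (2 * (K + 1))) ^ 2 := by
      have h2 : 0 ≤ 1 / (2 * (K + 1)) := by positivity
      nlinarith
    calc K * c' ^ 2 ≤ K * (1 / (2 * (K + 1))) ^ 2 := mul_le_mul_of_nonneg_left h1 hK
      _ = K / (4 * (K + 1) ^ 2) := by field_simp; ring
      _ ≤ 1 / 4 := by
        rw [div_le_div_iff₀ (by positivity) (by norm_num)]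
        nlinarith
  have hsub : ∀ p : ℂ × ℂ, p ∈ HP c' → p ∈ HP c := fun p hp =>
    lt_of_lt_of_le hp (mul_le_mul_of_nonneg_right hcc (HP_re hc'0 hp).le)
  refine ⟨c', K, zl θ β, ⟨hn, hc'0, hc1, hK, hKc, ?_, ?_, ?_⟩⟩
  · intro p hp
    exact (zl_diff hF hβ (hsub p hp)).differentiableWithinAt
  · intro s u hp
    have h := zl_bd hF hβ (hsub (s, u) hp)
    exact h
  · intro s u hp
    have hs : 0 < s.re := HP_re (half_pos hc'0) hp
    have hu : ‖u‖ < c' / 2 * s.re := hp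
    have hur : |u.re| ≤ ‖u‖ := Complex.abs_re_le_norm u
    have hur' := abs_le.1 hur
    have k0 : 0 < c' * s.re := mul_pos hc'0 hs
    have k1 : c' * u.re ≤ c' * ‖u‖ := mul_le_mul_of_nonneg_left hur'.2 hc'0.le
    have k2 : c' * (-‖u‖) ≤ c' * u.re := mul_le_mul_of_nonneg_left hur'.1 hc'0.le
    have k3 : c' * ‖u‖ ≤ 1 / 2 * ‖u‖ := mul_le_mul_of_nonneg_right hc1 (norm_nonneg _)
    have h0 : (s, u) ∈ HP c' := by
      show ‖u‖ < c' * s.re
      linarith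
    have hm : (s - u, u) ∈ HP c' := by
      show ‖u‖ < c' * (s - u).re
      rw [Complex.sub_re, mul_sub]
      linarith
    have hpl : (s + u, u) ∈ HP c' := by
      show ‖u‖ < c' * (s + u).re
      rw [Complex.add_re, mul_add]
      linarith
    obtain ⟨a1, b1⟩ := phi_lim (H := H) (n := n) hF hβ hc'0 hcc hKc hC₀ hlim hm
    obtain ⟨a2, b2⟩ := phi_lim (H := H) (n := n) hF hβ hc'0 hcc hKc hC₀ hlim h0
    obtain ⟨a3, b3⟩ := phi_lim (H := H) (n := n) hF hβ hc'0 hcc hKc hC₀ hlim hpl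
    have hτ0 : ∀ᶠ y : ℝ in (UU : Filter ℝ), C₀ * (y : ℂ) ^ mu n ≠ 0 := by
      filter_upwards [ev_small (Y := 1) (B := 0) one_pos] with y hy
      have hy0 : (y : ℂ) ≠ 0 := by exact_mod_cast hy.1.ne'
      refine mul_ne_zero hC₀ ?_
      rw [Complex.cpow_def_of_ne_zero hy0]; exact Complex.exp_ne_zero _
    refine Mf_limit (l := (UU : Filter ℝ)) (by omega) hH hfac hR₁ hR0 (tau_zero n C₀) hτ0 b1 b2 b3 ?_
    filter_upwards [hτ0, a1, a2, a3, ev_small (B := s.re) hF.hY,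
      ev_small (B := (s - u).re) hF.hY, ev_small (B := (s + u).re) hF.hY]
      with y hτ q1 q2 q3 hy hy1 hy2
    have hre : ∀ x : ℂ, ψ₀ + C₀ * (y : ℂ) ^ mu n * ((x - ψ₀) / (C₀ * (y : ℂ) ^ mu n)) = x := by
      intro x
      rw [mul_div_cancel₀ _ hτ]
      ring
    simp only [hre]
    have g0 := (pt_cone hβ hy.1 hs hy.2 (lt_of_lt_of_le h0
      (mul_le_mul_of_nonneg_right hcc hs.le))).1
    have g1 := (pt_cone hβ hy.1 (HP_re hc'0 hm) hy1.2 (hsub _ hm)).1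
    have g2 := (pt_cone hβ hy.1 (HP_re hc'0 hpl) hy2.2 (hsub _ hpl)).1
    have e1 : β - I * y * s - -(I * y * u) = β - I * y * (s - u) := by ring
    have e2 : β - I * y * s + -(I * y * u) = β - I * y * (s + u) := by ring
    have := hEL (β - I * y * s) (-(I * y * u)) g0 (by rw [e1]; exact g1) (by rw [e2]; exact g2) q2
      (by rw [e1]; exact q1) (by rw [e2]; exact q3)
    rw [e1, e2] at this
    exact this

end Vale.Agent.P097.H133
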