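import Vale.Agent.P097.H128.Sector.A3

/-! # P097 / case [d], row D3: the billiard map in the `x`-chart, uniform estimates.
Part 1: elementary bounds, the second order equation of the incidence function -/

set_option linter.all false

open Complex Metric Filter Topology Set

namespace Vale.Agent.P097.H133.Tm

open Vale.Agent.P097 Vale.Agent.P097.SC

/-! ## elementary bounds -/

theorem norm_cos_le {z : ℂ} (hz : ‖z‖ ≤ 1 / 2) : ‖Complex.cos z‖ ≤ 2 := by
  have h1 : ‖Complex.cos z‖ ≤ Real.exp ‖z‖ := by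
    rw [Complex.cos]
    have e1 : ‖Complex.exp (z * I)‖ ≤ Real.exp ‖z‖ := by
      refine (Complex.norm_exp_le_exp_norm _).trans ?_
      rw [norm_mul, Complex.norm_I, mul_one]
    have e2 : ‖Complex.exp (-z * I)‖ ≤ Real.exp ‖z‖ := by
      refine (Complex.norm_exp_le_exp_norm _).trans ?_
      rw [norm_mul, Complex.norm_I, mul_one, norm_neg]
    rw [norm_div]
    have e3 : ‖(2 : ℂ)‖ = 2 := by norm_num
    rw [e3]
    have e4 := norm_add_le (Complex.exp (z * I)) (Complex.exp (-z * I))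
    linarith
  have h2 : Real.exp ‖z‖ ≤ Real.exp (1 / 2) := Real.exp_le_exp.2 hz
  have h3 : Real.exp (1 / 2) ≤ 2 := by
    have h4 : Real.exp (1 / 2) * Real.exp (1 / 2) = Real.exp 1 := by
      rw [← Real.exp_add]; norm_num
    have h5 := Real.exp_one_lt_d9
    nlinarith [Real.exp_pos (1 / 2 : ℝ)]
  linarith

theorem convex_cb (r : ℝ) : Convex ℝ (closedBall (0 : ℂ) r) := convex_closedBall _ _

theorem norm_sin_le {z : ℂ} (hz : ‖z‖ ≤ 1 / 2) : ‖Complex.sin z‖ ≤ 2 * ‖z‖ := by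
  have h := (convex_cb (1 / 2)).norm_image_sub_le_of_norm_hasDerivWithin_le
    (f := Complex.sin) (f' := Complex.cos) (C := 2) (x := 0) (y := z)
    (fun x hx => (Complex.hasDerivAt_sin x).hasDerivWithinAt)
    (fun x hx => norm_cos_le (by rwa [mem_closedBall_zero_iff] at hx))
    (by simp) (by rwa [mem_closedBall_zero_iff])
  simpa using h

theorem norm_sin_le' {z : ℂ} {r : ℝ} (hr : r ≤ 1 / 2) (hz : ‖z‖ ≤ r) : ‖Complex.sin z‖ ≤ 2 * r :=
  (norm_sin_le (hz.trans hr)).trans (by linarith)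

/-- Lipschitz bound for the cosine near `0` -/
theorem norm_cos_sub_le {z w : ℂ} {r : ℝ} (hr : r ≤ 1 / 2) (hz : ‖z‖ ≤ r) (hw : ‖w‖ ≤ r) :
    ‖Complex.cos z - Complex.cos w‖ ≤ 2 * r * ‖z - w‖ := by
  refine (convex_cb r).norm_image_sub_le_of_norm_hasDerivWithin_le
    (f := Complex.cos) (f' := fun x => -Complex.sin x) (C := 2 * r) (x := w) (y := z)
    (fun x hx => (Complex.hasDerivAt_cos x).hasDerivWithinAt) ?_
    (by rwa [mem_closedBall_zero_iff]) (by rwa [mem_closedBall_zero_iff])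
  intro x hx
  rw [norm_neg]
  exact norm_sin_le' hr (by rwa [mem_closedBall_zero_iff] at hx)

theorem norm_cos_sub_one_le {z : ℂ} {r : ℝ} (hr : r ≤ 1 / 2) (hz : ‖z‖ ≤ r) :
    ‖Complex.cos z - 1‖ ≤ 2 * r * ‖z‖ := by
  have h0 : 0 ≤ r := (norm_nonneg z).trans hz
  have h := norm_cos_sub_le (w := 0) hr hz (by simpa using h0)
  simpa using h

theorem norm_snc_sub_one_le {z : ℂ} (hz : ‖z‖ ≤ 1 / 2) : ‖NZ.snc z - 1‖ ≤ 2 * ‖z‖ ^ 2 := by
  by_cases h0 : z = 0
  · rw [h0, NZ.snc_zero]; simp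
  · have h1 : ‖Complex.sin z - z‖ ≤ 2 * ‖z‖ * ‖z‖ * ‖z‖ := by
      have h := (convex_cb ‖z‖).norm_image_sub_le_of_norm_hasDerivWithin_le
        (f := fun x => Complex.sin x - x) (f' := fun x => Complex.cos x - 1)
        (C := 2 * ‖z‖ * ‖z‖) (x := 0) (y := z)
        (fun x hx => ((Complex.hasDerivAt_sin x).sub (hasDerivAt_id x)).hasDerivWithinAt)
        (fun x hx => by
          rw [mem_closedBall_zero_iff] at hx
          refine (norm_cos_sub_one_le hz hx).trans ?_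
          exact mul_le_mul_of_nonneg_left hx (by positivity))
        (by simp) (by simp)
      simpa using h
    have h2 : Complex.sin z - z = z * (NZ.snc z - 1) := by
      rw [← NZ.mul_snc z]; ring
    rw [h2, norm_mul] at h1
    have h3 : 0 < ‖z‖ := norm_pos_iff.2 h0
    have h4 : ‖z‖ * ‖NZ.snc z - 1‖ ≤ ‖z‖ * (2 * ‖z‖ ^ 2) := by
      calc ‖z‖ * ‖NZ.snc z - 1‖ ≤ 2 * ‖z‖ * ‖z‖ * ‖z‖ := h1
        _ = _ := by ring
    exact le_of_mul_le_mul_left h4 h3

theorem norm_snc_sub_le {z w : ℂ} (hz : ‖z‖ ≤ 1 / 4) (hw : ‖w‖ ≤ 1 / 4) :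
    ‖NZ.snc z - NZ.snc w‖ ≤ 2 * ‖z - w‖ := by
  have hd : ∀ x ∈ closedBall (0 : ℂ) (1 / 4), ‖deriv (fun y => NZ.snc y - 1) x‖ ≤ 2 := by
    intro x hx
    rw [mem_closedBall_zero_iff] at hx
    have h := Complex.norm_deriv_le_of_forall_mem_sphere_norm_le (c := x) (R := 1 / 4) (C := 1 / 2)
      (f := fun y => NZ.snc y - 1) (by norm_num)
      (NZ.snc_diff.sub_const 1).diffContOnCl (by
        intro y hy
        have h1 : ‖y‖ ≤ 1 / 2 := by
          have h2 : ‖y‖ ≤ ‖y - x‖ + ‖x‖ := by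
            calc ‖y‖ = ‖(y - x) + x‖ := by ring_nf
              _ ≤ _ := norm_add_le _ _
          rw [mem_sphere_iff_norm] at hy
          linarith
        refine (norm_snc_sub_one_le h1).trans ?_
        nlinarith [norm_nonneg y])
    refine h.trans ?_
    norm_num
  have h := (convex_cb (1 / 4)).norm_image_sub_le_of_norm_hasDerivWithin_le
    (f := fun y => NZ.snc y - 1) (f' := deriv (fun y => NZ.snc y - 1)) (C := 2) (x := w) (y := z)
    (fun x hx => ((NZ.snc_diff.sub_const 1) x).hasDerivAt.hasDerivWithinAt) hd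
    (by rwa [mem_closedBall_zero_iff]) (by rwa [mem_closedBall_zero_iff])
  have e : (NZ.snc z - 1) - (NZ.snc w - 1) = NZ.snc z - NZ.snc w := by ring
  simpa [e] using h

theorem snc_ne {z : ℂ} (hz : ‖z‖ ≤ 1 / 2) : 1 / 2 ≤ ‖NZ.snc z‖ := by
  have h1 := norm_snc_sub_one_le hz
  have h2 : ‖(1 : ℂ)‖ - ‖NZ.snc z‖ ≤ ‖NZ.snc z - 1‖ := by
    rw [norm_sub_rev]
    exact norm_sub_norm_le _ _
  rw [norm_one] at h2
  nlinarith [norm_nonneg z]

/-- two integrations -/
theorem two_step {f f1 f2 : ℂ → ℂ} {r K : ℝ} (hr : 0 ≤ r) (hK : 0 ≤ K)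
    (h1 : ∀ s ∈ closedBall (0 : ℂ) r, HasDerivAt f (f1 s) s)
    (h2 : ∀ s ∈ closedBall (0 : ℂ) r, HasDerivAt f1 (f2 s) s)
    (hb : ∀ s ∈ closedBall (0 : ℂ) r, ‖f2 s‖ ≤ K) {s : ℂ} (hs : s ∈ closedBall (0 : ℂ) r) :
    ‖f1 s - f1 0‖ ≤ K * r ∧ ‖f s - f 0 - s * f1 0‖ ≤ K * r * r := by
  have h0 : (0 : ℂ) ∈ closedBall (0 : ℂ) r := by simpa using hr
  have a1 : ∀ x ∈ closedBall (0 : ℂ) r, ‖f1 x - f1 0‖ ≤ K * r := by
    intro x hx
    have h := (convex_cb r).norm_image_sub_le_of_norm_hasDerivWithin_le (f := f1) (f' := f2)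
      (C := K) (x := 0) (y := x) (fun y hy => (h2 y hy).hasDerivWithinAt) hb h0 hx
    refine h.trans (mul_le_mul_of_nonneg_left ?_ hK)
    simpa using hx
  refine ⟨a1 s hs, ?_⟩
  have h := (convex_cb r).norm_image_sub_le_of_norm_hasDerivWithin_le
    (f := fun x => f x - x * f1 0) (f' := fun x => f1 x - f1 0)
    (C := K * r) (x := 0) (y := s) (fun y hy => by
      have h3 := (h1 y hy).sub ((hasDerivAt_id y).mul_const (f1 0))
      exact (h3.congr_deriv (by ring)).hasDerivWithinAt) a1 h0 hs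
  have e : (f s - s * f1 0) - (f 0 - 0 * f1 0) = f s - f 0 - s * f1 0 := by ring
  simp only [e, sub_zero] at h
  refine h.trans (mul_le_mul_of_nonneg_left ?_ (by positivity))
  simpa using hs

/-! ## the incidence function -/

variable {Φ q Q : ℂ → ℂ} {c : ℂ}

/-- the derivative of `Gi Φ q v` -/
noncomputable def Gi1 (Φ q : ℂ → ℂ) (v : ℂ × ℂ) (x : ℂ) : ℂ :=
  deriv (deriv Φ) x * (q x * Complex.cos (aL Φ 1 v - Φ x) - qL Φ q 1 v) +
    (deriv (deriv q) x + q x * deriv Φ x ^ 2) * Complex.sin (aL Φ 1 v - Φ x)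

theorem hasDerivAt_Gi {v : ℂ × ℂ} {x : ℂ} (hΦ : AnalyticAt ℂ Φ x) (hq : AnalyticAt ℂ q x) :
    HasDerivAt (Gi Φ q v) (Gi1 Φ q v x) x := by
  have h1 := hΦ.differentiableAt.hasDerivAt
  have h2 := hΦ.deriv.differentiableAt.hasDerivAt
  have h3 := hq.differentiableAt.hasDerivAt
  have h4 := hq.deriv.differentiableAt.hasDerivAt
  have hA := h1.const_sub (aL Φ 1 v)
  have hc := (Complex.hasDerivAt_cos (aL Φ 1 v - Φ x)).comp x hA
  have hs := (Complex.hasDerivAt_sin (aL Φ 1 v - Φ x)).comp x hA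
  have h5 := (h2.mul ((h3.mul hc).sub_const (qL Φ q 1 v))).add (h4.mul hs)
  refine h5.congr_deriv ?_
  simp only [Function.comp, Gi1, Pi.mul_apply]
  ring

/-- `q''' + q' Φ'^2 + 3 q Φ' Φ'' = Q q'` -/
theorem third_eq {x : ℂ} (h : Crv Φ q c x) (hc : c ≠ 0) (hQ : AnalyticAt ℂ Q x)
    (e : ∀ᶠ z in 𝓝 x, deriv (deriv (deriv Φ)) z = Q z * deriv Φ z) :
    deriv (deriv (deriv q)) x + deriv q x * deriv Φ x ^ 2 + 3 * q x * deriv Φ x * deriv (deriv Φ) x
      = Q x * deriv q x := by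
  -- the product with `Φ'` vanishes
  have hprod : ∀ᶠ z in 𝓝 x, deriv Φ z * (deriv (deriv (deriv q)) z + deriv q z * deriv Φ z ^ 2 +
      3 * q z * deriv Φ z * deriv (deriv Φ) z - Q z * deriv q z) = 0 := by
    filter_upwards [h.wr.eventually_nhds, e, h.aΦ.eventually_analyticAt,
      h.aq.eventually_analyticAt] with z hw he aΦ aq
    have d0 := aq.differentiableAt.hasDerivAt
    have d1 := aq.deriv.differentiableAt.hasDerivAt
    have d2 := aq.deriv.deriv.differentiableAt.hasDerivAt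
    have f1 := aΦ.deriv.differentiableAt.hasDerivAt
    have f2 := aΦ.deriv.deriv.differentiableAt.hasDerivAt
    have h5 := ((d2.mul f1).sub (d1.mul f2)).add (d0.mul (f1.pow 3))
    have h6 : HasDerivAt (Wr Φ q) 0 z := by
      refine (hasDerivAt_const z c).congr_of_eventuallyEq ?_
      filter_upwards [hw] with y hy using hy
    have h7 := h6.unique (h5 : HasDerivAt (Wr Φ q) _ z)
    simp only [Pi.pow_apply] at h7
    rw [he] at h7
    push_cast at h7
    norm_num at h7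
    linear_combination -h7
  by_cases h0 : deriv Φ x = 0
  · -- differentiate the product
    have hdd : deriv (deriv Φ) x ≠ 0 := by
      intro h1
      have hw := h.wr.self_of_nhds
      rw [Wr, h0, h1] at hw
      apply hc
      rw [← hw]
      ring
    set F : ℂ → ℂ := fun z => deriv (deriv (deriv q)) z + deriv q z * deriv Φ z ^ 2 +
      3 * q z * deriv Φ z * deriv (deriv Φ) z - Q z * deriv q z with hF
    have aF : AnalyticAt ℂ F x := by
      have a1 := h.aq.deriv.deriv.deriv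
      have a2 := h.aq.deriv.mul (h.aΦ.deriv.pow 2)
      have a3 := ((analyticAt_const (v := (3 : ℂ)) (x := x)).mul h.aq).mul h.aΦ.deriv |>.mul
        h.aΦ.deriv.deriv
      exact ((a1.add a2).add a3).sub (hQ.mul h.aq.deriv)
    have h1 : HasDerivAt (fun z => deriv Φ z * F z)
        (deriv (deriv Φ) x * F x + deriv Φ x * deriv F x) x :=
      h.aΦ.deriv.differentiableAt.hasDerivAt.mul aF.differentiableAt.hasDerivAt
    have h2 : HasDerivAt (fun z => deriv Φ z * F z) 0 x := by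
      refine (hasDerivAt_const x (0 : ℂ)).congr_of_eventuallyEq ?_
      filter_upwards [hprod] with z hz using hz
    have h3 := h1.unique h2
    rw [h0, zero_mul, add_zero] at h3
    have h4 := (mul_eq_zero.1 h3).resolve_left hdd
    have h5 : F x = 0 := h4
    rw [hF] at h5
    exact sub_eq_zero.1 h5
  · exact sub_eq_zero.1 ((mul_eq_zero.1 hprod.self_of_nhds).resolve_left h0)

/-- the second order equation -/
theorem hasDerivAt_Gi1 {v : ℂ × ℂ} {x : ℂ} (h : Crv Φ q c x) (hc : c ≠ 0) (hQ : AnalyticAt ℂ Q x)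
    (e : ∀ᶠ z in 𝓝 x, deriv (deriv (deriv Φ)) z = Q z * deriv Φ z) :
    HasDerivAt (Gi1 Φ q v) (Q x * Gi Φ q v x - c * Complex.cos (aL Φ 1 v - Φ x)) x := by
  have h1 := h.aΦ.differentiableAt.hasDerivAt
  have h2 := h.aΦ.deriv.differentiableAt.hasDerivAt
  have h22 := h.aΦ.deriv.deriv.differentiableAt.hasDerivAt
  have h3 := h.aq.differentiableAt.hasDerivAt
  have h4 := h.aq.deriv.deriv.differentiableAt.hasDerivAt
  have hA := h1.const_sub (aL Φ 1 v)
  have hcs := (Complex.hasDerivAt_cos (aL Φ 1 v - Φ x)).comp x hA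
  have hs := (Complex.hasDerivAt_sin (aL Φ 1 v - Φ x)).comp x hA
  have h5 := (h22.mul ((h3.mul hcs).sub_const (qL Φ q 1 v))).add
    ((h4.add (h3.mul (h2.pow 2))).mul hs)
  refine h5.congr_deriv ?_
  have e1 := e.self_of_nhds
  have e2 := third_eq h hc hQ e
  have hw := h.wr.self_of_nhds
  rw [Wr] at hw
  simp only [Function.comp, Gi, Pi.mul_apply, Pi.add_apply, Pi.pow_apply]
  rw [e1]
  push_cast
  norm_num
  linear_combination (Complex.sin (aL Φ 1 v - Φ x)) * e2 -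
    (Complex.cos (aL Φ 1 v - Φ x)) * hw

theorem Gi_self (v : ℂ × ℂ) : Gi Φ q v v.1 = 0 := by
  have e1 : aL Φ 1 v - Φ v.1 = deriv Φ v.1 * v.2 := by rw [aL]; ring
  rw [Gi, e1, qL, ← NZ.mul_snc]
  ring

theorem Gi1_self {v : ℂ × ℂ} (h : Wr Φ q v.1 = c) :
    Gi1 Φ q v v.1 = c * (v.2 * NZ.snc (deriv Φ v.1 * v.2)) := by
  have e1 : aL Φ 1 v - Φ v.1 = deriv Φ v.1 * v.2 := by rw [aL]; ring
  rw [Gi1, e1, qL, ← NZ.mul_snc, ← h, Wr]
  ring

end Vale.Agent.P097.H133.Tm
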