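import Vale.Agent.P097.H133.Tm1

/-! # P097 / case [d], row D3, part 2: the next vertex -/

set_option linter.all false

open Complex Metric Filter Topology Set

namespace Vale.Agent.P097.H133.Tm

open Vale.Agent.P097 Vale.Agent.P097.SC

variable {Φ q Q : ℂ → ℂ} {c : ℂ} {V : Set ℂ} {A B M : ℝ}

/-- a region of the `x`-chart with bounds for `Φ'`, `Φ''`, `Φ''' / Φ'` -/
structure Bx (Φ q Q : ℂ → ℂ) (c : ℂ) (V : Set ℂ) (A B M : ℝ) : Prop where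
  hc : c ≠ 0
  op : IsOpen V
  crv : ∀ x ∈ V, Crv Φ q c x
  aQ : ∀ x ∈ V, AnalyticAt ℂ Q x
  eQ : ∀ x ∈ V, deriv (deriv (deriv Φ)) x = Q x * deriv Φ x
  bA : ∀ x ∈ V, ‖deriv Φ x‖ ≤ A
  bB : ∀ x ∈ V, ‖deriv (deriv Φ) x‖ ≤ B
  bM : ∀ x ∈ V, ‖Q x‖ ≤ M

/-- admissible phase points -/
structure Ad (V : Set ℂ) (A B M : ℝ) (v : ℂ × ℂ) : Prop where
  sub : closedBall v.1 (3 * ‖v.2‖) ⊆ V
  h1 : A * ‖v.2‖ < 1 / 100
  h2 : (B + M) * ‖v.2‖ ^ 2 < 1 / 10000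

theorem Bx.A0 (T : Bx Φ q Q c V A B M) {x : ℂ} (hx : x ∈ V) : 0 ≤ A :=
  (norm_nonneg _).trans (T.bA x hx)
theorem Bx.B0 (T : Bx Φ q Q c V A B M) {x : ℂ} (hx : x ∈ V) : 0 ≤ B :=
  (norm_nonneg _).trans (T.bB x hx)
theorem Bx.M0 (T : Bx Φ q Q c V A B M) {x : ℂ} (hx : x ∈ V) : 0 ≤ M :=
  (norm_nonneg _).trans (T.bM x hx)

theorem Ad.mem {v : ℂ × ℂ} (a : Ad V A B M v) {s : ℂ} (hs : ‖s‖ ≤ 3) : v.1 + v.2 * s ∈ V := by
  apply a.sub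
  rw [mem_closedBall_iff_norm]
  have : v.1 + v.2 * s - v.1 = v.2 * s := by ring
  rw [this, norm_mul, mul_comm 3]
  exact mul_le_mul_of_nonneg_left hs (norm_nonneg _)

theorem Ad.mem1 {v : ℂ × ℂ} (a : Ad V A B M v) : v.1 ∈ V := by
  have := a.mem (s := 0) (by simp)
  simpa using this

theorem Bx.eQ' (T : Bx Φ q Q c V A B M) {x : ℂ} (hx : x ∈ V) :
    ∀ᶠ z in 𝓝 x, deriv (deriv (deriv Φ)) z = Q z * deriv Φ z := by
  filter_upwards [T.op.mem_nhds hx] with z hz using T.eQ z hz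

/-- the scaled incidence function and its derivatives -/
noncomputable def Y (Φ q : ℂ → ℂ) (c : ℂ) (v : ℂ × ℂ) (s : ℂ) : ℂ :=
  Gi Φ q v (v.1 + v.2 * s) / (c * v.2 ^ 2)
noncomputable def Y1 (Φ q : ℂ → ℂ) (c : ℂ) (v : ℂ × ℂ) (s : ℂ) : ℂ :=
  Gi1 Φ q v (v.1 + v.2 * s) / (c * v.2)
noncomputable def Y2 (Φ q Q : ℂ → ℂ) (c : ℂ) (v : ℂ × ℂ) (s : ℂ) : ℂ :=
  v.2 ^ 2 * Q (v.1 + v.2 * s) * Y Φ q c v s -
    Complex.cos (aL Φ 1 v - Φ (v.1 + v.2 * s))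

theorem hasDerivAt_lin (v : ℂ × ℂ) (s : ℂ) : HasDerivAt (fun s : ℂ => v.1 + v.2 * s) v.2 s := by
  simpa using ((hasDerivAt_id s).const_mul v.2).const_add v.1

theorem hasDerivAt_Y (T : Bx Φ q Q c V A B M) {v : ℂ × ℂ} (a : Ad V A B M v) (h0 : v.2 ≠ 0)
    {s : ℂ} (hs : ‖s‖ ≤ 3) : HasDerivAt (Y Φ q c v) (Y1 Φ q c v s) s := by
  have hm := a.mem hs
  have h1 := (hasDerivAt_Gi (v := v) (T.crv _ hm).aΦ (T.crv _ hm).aq).comp s (hasDerivAt_lin v s)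
  have h2 := h1.div_const (c * v.2 ^ 2)
  refine h2.congr_deriv ?_
  have hc := T.hc
  rw [Y1]
  field_simp

theorem hasDerivAt_Y1 (T : Bx Φ q Q c V A B M) {v : ℂ × ℂ} (a : Ad V A B M v) (h0 : v.2 ≠ 0)
    {s : ℂ} (hs : ‖s‖ ≤ 3) : HasDerivAt (Y1 Φ q c v) (Y2 Φ q Q c v s) s := by
  have hm := a.mem hs
  have h1 := (hasDerivAt_Gi1 (v := v) (T.crv _ hm) T.hc (T.aQ _ hm) (T.eQ' hm)).comp s
    (hasDerivAt_lin v s)
  have h2 := h1.div_const (c * v.2)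
  refine h2.congr_deriv ?_
  have hc := T.hc
  rw [Y2, Y]
  field_simp

theorem Y_zero (v : ℂ × ℂ) : Y Φ q c v 0 = 0 := by
  rw [Y, mul_zero, add_zero, Gi_self, zero_div]

theorem Y1_zero (T : Bx Φ q Q c V A B M) {v : ℂ × ℂ} (a : Ad V A B M v) (h0 : v.2 ≠ 0) :
    Y1 Φ q c v 0 = NZ.snc (deriv Φ v.1 * v.2) := by
  have hc := T.hc
  rw [Y1, mul_zero, add_zero, Gi1_self (T.crv _ a.mem1).wr.self_of_nhds]
  field_simp

/-- first and second order bounds for `Φ` -/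
theorem Phi_bd (T : Bx Φ q Q c V A B M) {v : ℂ × ℂ} (a : Ad V A B M v)
    {s : ℂ} (hs : ‖s‖ ≤ 3) :
    ‖Φ (v.1 + v.2 * s) - Φ v.1‖ ≤ 3 * (A * ‖v.2‖) ∧
      ‖Φ (v.1 + v.2 * s) - Φ v.1 - s * (deriv Φ v.1 * v.2)‖ ≤ 9 * (B * ‖v.2‖ ^ 2) := by
  have hcb : ∀ y ∈ closedBall (0 : ℂ) 3, ‖y‖ ≤ 3 := fun y hy => by
    rwa [mem_closedBall_zero_iff] at hy
  have d1 : ∀ y ∈ closedBall (0 : ℂ) 3, HasDerivAt (fun y : ℂ => Φ (v.1 + v.2 * y))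
      (deriv Φ (v.1 + v.2 * y) * v.2) y := fun y hy =>
    (T.crv _ (a.mem (hcb y hy))).aΦ.differentiableAt.hasDerivAt.comp y (hasDerivAt_lin v y)
  have d2 : ∀ y ∈ closedBall (0 : ℂ) 3, HasDerivAt (fun y : ℂ => deriv Φ (v.1 + v.2 * y) * v.2)
      (deriv (deriv Φ) (v.1 + v.2 * y) * v.2 * v.2) y := fun y hy =>
    ((T.crv _ (a.mem (hcb y hy))).aΦ.deriv.differentiableAt.hasDerivAt.comp y
      (hasDerivAt_lin v y)).mul_const _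
  have hA := T.A0 a.mem1
  have hB := T.B0 a.mem1
  have hs' : s ∈ closedBall (0 : ℂ) 3 := by rwa [mem_closedBall_zero_iff]
  constructor
  · have h := (convex_cb 3).norm_image_sub_le_of_norm_hasDerivWithin_le
      (f := fun y : ℂ => Φ (v.1 + v.2 * y)) (f' := fun y => deriv Φ (v.1 + v.2 * y) * v.2)
      (C := A * ‖v.2‖) (x := 0) (y := s) (fun y hy => (d1 y hy).hasDerivWithinAt)
      (fun y hy => by
        rw [norm_mul]
        exact mul_le_mul_of_nonneg_right (T.bA _ (a.mem (hcb y hy))) (norm_nonneg _))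
      (by simp) hs'
    simp only [mul_zero, add_zero, sub_zero] at h
    refine h.trans ?_
    rw [mul_comm]
    exact mul_le_mul_of_nonneg_right hs (by positivity)
  · have h := (two_step (K := B * ‖v.2‖ ^ 2) (by norm_num) (by positivity) d1 d2 (fun y hy => by
      rw [norm_mul, norm_mul, mul_assoc, ← sq]
      exact mul_le_mul_of_nonneg_right (T.bB _ (a.mem (hcb y hy))) (by positivity)) hs').2
    simp only [mul_zero, add_zero] at h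
    refine h.trans ?_
    linarith

theorem arg_bd (T : Bx Φ q Q c V A B M) {v : ℂ × ℂ} (a : Ad V A B M v)
    {s : ℂ} (hs : ‖s‖ ≤ 3) :
    ‖aL Φ 1 v - Φ (v.1 + v.2 * s)‖ ≤ 4 * (A * ‖v.2‖) ∧
    ‖aL Φ 1 v - Φ (v.1 + v.2 * s) - (deriv Φ v.1 * v.2) * (1 - s)‖ ≤ 9 * (B * ‖v.2‖ ^ 2) := by
  obtain ⟨h1, h2⟩ := Phi_bd T a hs
  have h3 : ‖deriv Φ v.1 * v.2‖ ≤ A * ‖v.2‖ := by
    rw [norm_mul]
    exact mul_le_mul_of_nonneg_right (T.bA _ a.mem1) (norm_nonneg _)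
  constructor
  · have e : aL Φ 1 v - Φ (v.1 + v.2 * s) =
        (deriv Φ v.1 * v.2) - (Φ (v.1 + v.2 * s) - Φ v.1) := by rw [aL]; ring
    rw [e]
    refine (norm_sub_le _ _).trans ?_
    linarith
  · have e : aL Φ 1 v - Φ (v.1 + v.2 * s) - (deriv Φ v.1 * v.2) * (1 - s) =
        -(Φ (v.1 + v.2 * s) - Φ v.1 - s * (deriv Φ v.1 * v.2)) := by rw [aL]; ring
    rw [e, norm_neg]
    exact h2

theorem M1_le (T : Bx Φ q Q c V A B M) {v : ℂ × ℂ} (a : Ad V A B M v) :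
    M * ‖v.2‖ ^ 2 ≤ 1 / 10000 ∧ B * ‖v.2‖ ^ 2 ≤ 1 / 10000 ∧ 0 ≤ M * ‖v.2‖ ^ 2 ∧
      0 ≤ B * ‖v.2‖ ^ 2 ∧ 0 ≤ A * ‖v.2‖ := by
  have hA := T.A0 a.mem1
  have hB := T.B0 a.mem1
  have hM := T.M0 a.mem1
  have h2 := a.h2
  have i1 : 0 ≤ M * ‖v.2‖ ^ 2 := by positivity
  have i2 : 0 ≤ B * ‖v.2‖ ^ 2 := by positivity
  have i3 : 0 ≤ A * ‖v.2‖ := by positivity
  refine ⟨?_, ?_, i1, i2, i3⟩ <;> nlinarith

/-- the bound of the scaled incidence function -/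
theorem Y_bd (T : Bx Φ q Q c V A B M) {v : ℂ × ℂ} (a : Ad V A B M v) (h0 : v.2 ≠ 0)
    {s : ℂ} (hs : ‖s‖ ≤ 3) : ‖Y Φ q c v s‖ ≤ 24 := by
  have hcb : ∀ y ∈ closedBall (0 : ℂ) 3, ‖y‖ ≤ 3 := fun y hy => by
    rwa [mem_closedBall_zero_iff] at hy
  obtain ⟨m1, b1, m0, b0, a0⟩ := M1_le T a
  have hcont : ContinuousOn (fun y => ‖Y Φ q c v y‖) (closedBall (0 : ℂ) 3) := fun y hy =>
    (hasDerivAt_Y T a h0 (hcb y hy)).continuousAt.continuousWithinAt.norm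
  obtain ⟨y₀, hy₀, hmax⟩ := (isCompact_closedBall (0 : ℂ) 3).exists_isMaxOn
    ⟨0, by simp⟩ hcont
  set K : ℝ := ‖Y Φ q c v y₀‖ with hK
  have hK0 : 0 ≤ K := norm_nonneg _
  have hle : ∀ y ∈ closedBall (0 : ℂ) 3, ‖Y Φ q c v y‖ ≤ K := fun y hy => hmax hy
  have hY2 : ∀ y ∈ closedBall (0 : ℂ) 3, ‖Y2 Φ q Q c v y‖ ≤ M * ‖v.2‖ ^ 2 * K + 2 := by
    intro y hy
    have h1 := (arg_bd T a (hcb y hy)).1
    have h2 : ‖Complex.cos (aL Φ 1 v - Φ (v.1 + v.2 * y))‖ ≤ 2 := norm_cos_le (by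
      have := a.h1
      linarith)
    rw [Y2]
    refine (norm_sub_le _ _).trans (add_le_add ?_ h2)
    rw [norm_mul, norm_mul, norm_pow]
    have h3 := T.bM _ (a.mem (hcb y hy))
    have h4 : ‖v.2‖ ^ 2 * ‖Q (v.1 + v.2 * y)‖ ≤ M * ‖v.2‖ ^ 2 := by
      rw [mul_comm M]
      exact mul_le_mul_of_nonneg_left h3 (by positivity)
    exact mul_le_mul h4 (hle y hy) (norm_nonneg _) m0
  have h1 := (two_step (K := M * ‖v.2‖ ^ 2 * K + 2) (by norm_num) (by positivity)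
    (fun y hy => hasDerivAt_Y T a h0 (hcb y hy)) (fun y hy => hasDerivAt_Y1 T a h0 (hcb y hy))
    hY2 hy₀).2
  rw [Y_zero, Y1_zero T a h0, sub_zero] at h1
  have h2 : ‖NZ.snc (deriv Φ v.1 * v.2)‖ ≤ 1 + 1 / 100 := by
    have h3 : ‖deriv Φ v.1 * v.2‖ ≤ 1 / 100 := by
      rw [norm_mul]
      have := mul_le_mul_of_nonneg_right (T.bA _ a.mem1) (norm_nonneg v.2)
      have := a.h1
      linarith
    have h4 := norm_snc_sub_one_le (z := deriv Φ v.1 * v.2) (by linarith)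
    have h5 : ‖NZ.snc (deriv Φ v.1 * v.2)‖ ≤ ‖NZ.snc (deriv Φ v.1 * v.2) - 1‖ + 1 := by
      calc _ = ‖(NZ.snc (deriv Φ v.1 * v.2) - 1) + 1‖ := by ring_nf
        _ ≤ _ := by
          refine (norm_add_le _ _).trans ?_
          rw [norm_one]
    nlinarith [norm_nonneg (deriv Φ v.1 * v.2)]
  have h3 : K ≤ ‖Y Φ q c v y₀ - y₀ * NZ.snc (deriv Φ v.1 * v.2)‖ +
      ‖y₀ * NZ.snc (deriv Φ v.1 * v.2)‖ := by
    calc K = ‖(Y Φ q c v y₀ - y₀ * NZ.snc (deriv Φ v.1 * v.2)) +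
        y₀ * NZ.snc (deriv Φ v.1 * v.2)‖ := by rw [hK]; ring_nf
      _ ≤ _ := norm_add_le _ _
  have h4 : ‖y₀ * NZ.snc (deriv Φ v.1 * v.2)‖ ≤ 3 * (1 + 1 / 100) := by
    rw [norm_mul]
    exact mul_le_mul (hcb y₀ hy₀) h2 (norm_nonneg _) (by norm_num)
  have h5 : M * ‖v.2‖ ^ 2 * K ≤ 1 / 10000 * K := mul_le_mul_of_nonneg_right m1 hK0
  have h6 : K ≤ 24 := by nlinarith
  exact (hle s (by rwa [mem_closedBall_zero_iff])).trans h6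

/-- `Y' ≈ 1 - s` -/
theorem Y1_bd (T : Bx Φ q Q c V A B M) {v : ℂ × ℂ} (a : Ad V A B M v) (h0 : v.2 ≠ 0)
    {s : ℂ} (hs : ‖s‖ ≤ 3) : ‖Y1 Φ q c v s - (1 - s)‖ ≤ 1 / 10 := by
  have hcb : ∀ y ∈ closedBall (0 : ℂ) 3, ‖y‖ ≤ 3 := fun y hy => by
    rwa [mem_closedBall_zero_iff] at hy
  obtain ⟨m1, b1, m0, b0, a0⟩ := M1_le T a
  have hA := a.h1
  have hb : ∀ y ∈ closedBall (0 : ℂ) 3, ‖Y2 Φ q Q c v y + 1‖ ≤ 3 / 100 := by
    intro y hy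
    have h1 := (arg_bd T a (hcb y hy)).1
    have h2 : ‖Complex.cos (aL Φ 1 v - Φ (v.1 + v.2 * y)) - 1‖ ≤ 2 * (1 / 25) * (1 / 25) := by
      have h3 : ‖aL Φ 1 v - Φ (v.1 + v.2 * y)‖ ≤ 1 / 25 := by linarith
      refine (norm_cos_sub_one_le (by norm_num) h3).trans ?_
      exact mul_le_mul_of_nonneg_left h3 (by norm_num)
    have h3 := T.bM _ (a.mem (hcb y hy))
    have h4 : ‖v.2 ^ 2 * Q (v.1 + v.2 * y) * Y Φ q c v y‖ ≤ M * ‖v.2‖ ^ 2 * 24 := by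
      rw [norm_mul, norm_mul, norm_pow]
      refine mul_le_mul ?_ (Y_bd T a h0 (hcb y hy)) (norm_nonneg _) m0
      rw [mul_comm M]
      exact mul_le_mul_of_nonneg_left h3 (by positivity)
    have e : Y2 Φ q Q c v y + 1 = v.2 ^ 2 * Q (v.1 + v.2 * y) * Y Φ q c v y -
        (Complex.cos (aL Φ 1 v - Φ (v.1 + v.2 * y)) - 1) := by rw [Y2]; ring
    rw [e]
    refine (norm_sub_le _ _).trans ?_
    linarith
  have h1 := (two_step (f := fun y => Y Φ q c v y + y ^ 2 / 2) (f1 := fun y => Y1 Φ q c v y + y)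
    (f2 := fun y => Y2 Φ q Q c v y + 1) (K := 3 / 100) (r := 3) (by norm_num) (by norm_num)
    (fun y hy => by
      have h2 := (hasDerivAt_Y T a h0 (hcb y hy)).add
        (((hasDerivAt_id y).pow 2).div_const 2)
      exact h2.congr_deriv (by simp))
    (fun y hy => (hasDerivAt_Y1 T a h0 (hcb y hy)).add (hasDerivAt_id y))
    hb (s := s) (by rwa [mem_closedBall_zero_iff])).1
  simp only [add_zero] at h1
  rw [Y1_zero T a h0] at h1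
  have h3 : ‖deriv Φ v.1 * v.2‖ ≤ 1 / 100 := by
    rw [norm_mul]
    have := mul_le_mul_of_nonneg_right (T.bA _ a.mem1) (norm_nonneg v.2)
    linarith
  have h4 := norm_snc_sub_one_le (z := deriv Φ v.1 * v.2) (by linarith)
  have e : Y1 Φ q c v s - (1 - s) = (Y1 Φ q c v s + s - NZ.snc (deriv Φ v.1 * v.2)) +
      (NZ.snc (deriv Φ v.1 * v.2) - 1) := by ring
  rw [e]
  refine (norm_add_le _ _).trans ?_
  nlinarith [norm_nonneg (deriv Φ v.1 * v.2)]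

/-- `Y` is expanding near `2` -/
theorem Y_inj (T : Bx Φ q Q c V A B M) {v : ℂ × ℂ} (a : Ad V A B M v) (h0 : v.2 ≠ 0)
    {x y : ℂ} (hx : ‖x - 2‖ ≤ 1 / 4) (hy : ‖y - 2‖ ≤ 1 / 4) :
    13 / 20 * ‖x - y‖ ≤ ‖Y Φ q c v x - Y Φ q c v y‖ := by
  have hn : ∀ z ∈ closedBall (2 : ℂ) (1 / 4), ‖z‖ ≤ 3 := by
    intro z hz
    rw [mem_closedBall_iff_norm] at hz
    have : ‖z‖ ≤ ‖z - 2‖ + ‖(2 : ℂ)‖ := by
      calc ‖z‖ = ‖(z - 2) + 2‖ := by ring_nf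
        _ ≤ _ := norm_add_le _ _
    have e : ‖(2 : ℂ)‖ = 2 := by norm_num
    linarith
  have h := (convex_closedBall (2 : ℂ) (1 / 4)).norm_image_sub_le_of_norm_hasDerivWithin_le
    (f := fun z => Y Φ q c v z + z) (f' := fun z => Y1 Φ q c v z + 1) (C := 7 / 20)
    (x := y) (y := x)
    (fun z hz => ((hasDerivAt_Y T a h0 (hn z hz)).add (hasDerivAt_id z)).hasDerivWithinAt)
    (fun z hz => by
      have h1 := Y1_bd T a h0 (hn z hz)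
      rw [mem_closedBall_iff_norm] at hz
      have e : Y1 Φ q c v z + 1 = (Y1 Φ q c v z - (1 - z)) - (z - 2) := by ring
      rw [e]
      refine (norm_sub_le _ _).trans ?_
      linarith)
    (by rwa [mem_closedBall_iff_norm]) (by rwa [mem_closedBall_iff_norm])
  have e : (Y Φ q c v x + x) - (Y Φ q c v y + y) =
      (Y Φ q c v x - Y Φ q c v y) + (x - y) := by ring
  rw [e] at h
  have h2 : ‖x - y‖ ≤ ‖(Y Φ q c v x - Y Φ q c v y) + (x - y)‖ + ‖Y Φ q c v x - Y Φ q c v y‖ := by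
    calc ‖x - y‖ = ‖((Y Φ q c v x - Y Φ q c v y) + (x - y)) - (Y Φ q c v x - Y Φ q c v y)‖ := by
          ring_nf
      _ ≤ _ := norm_sub_le _ _
  linarith

end Vale.Agent.P097.H133.Tm
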