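import Vale.Agent.P097.H133.Tm2

/-! # P097 / case [d], row D3, part 3: comparison with the circle, the root, the estimates -/

set_option linter.all false

open Complex Metric Filter Topology Set

namespace Vale.Agent.P097.H133.Tm

open Vale.Agent.P097 Vale.Agent.P097.SC

variable {Φ q Q : ℂ → ℂ} {c : ℂ} {V : Set ℂ} {A B M : ℝ}

theorem snc_two_mul (z : ℂ) : NZ.snc (2 * z) = NZ.snc z * Complex.cos z := by
  by_cases h : z = 0
  · rw [h, mul_zero, NZ.snc_zero, Complex.cos_zero, mul_one]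
  · have h1 := NZ.mul_snc (2 * z)
    have h2 := NZ.mul_snc z
    rw [Complex.sin_two_mul] at h1
    have h3 : (2 * z) * NZ.snc (2 * z) = (2 * z) * (NZ.snc z * Complex.cos z) := by
      rw [h1, ← h2]; ring
    exact mul_left_cancel₀ (mul_ne_zero two_ne_zero h) h3

/-- the model: antiderivative of `u snc (a u)` -/
noncomputable def Cc (a u : ℂ) : ℂ := (u * NZ.snc (a / 2 * u)) ^ 2 / 2

theorem hasDerivAt_Cc (a u : ℂ) : HasDerivAt (Cc a) (u * NZ.snc (a * u)) u := by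
  have h := ((hasDerivAt_mul_snc (a / 2) u).pow 2).div_const 2
  refine h.congr_deriv ?_
  have e : a * u = 2 * (a / 2 * u) := by ring
  rw [e, snc_two_mul]
  simp only [Nat.cast_ofNat, Nat.add_one_sub_one, pow_one]
  ring

/-- the solution for the circle -/
noncomputable def Y0 (a s : ℂ) : ℂ := Cc a 1 - Cc a (1 - s)

theorem hasDerivAt_sub (s : ℂ) : HasDerivAt (fun s : ℂ => 1 - s) (-1) s := by
  simpa using (hasDerivAt_id s).const_sub 1

theorem hasDerivAt_Y0 (a s : ℂ) : HasDerivAt (Y0 a) ((1 - s) * NZ.snc (a * (1 - s))) s := by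
  have h := ((hasDerivAt_Cc a (1 - s)).comp s (hasDerivAt_sub s)).const_sub (Cc a 1)
  exact h.congr_deriv (by ring)

theorem hasDerivAt_Y01 (a s : ℂ) :
    HasDerivAt (fun s => (1 - s) * NZ.snc (a * (1 - s))) (-Complex.cos (a * (1 - s))) s := by
  have h := (hasDerivAt_mul_snc a (1 - s)).comp s (hasDerivAt_sub s)
  exact h.congr_deriv (by ring)

theorem Y0_zero (a : ℂ) : Y0 a 0 = 0 := by rw [Y0, sub_zero, sub_self]

theorem Y0_two (a : ℂ) : Y0 a 2 = 0 := by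
  rw [Y0, Cc, Cc]
  have e : (a / 2 * (1 - 2) : ℂ) = -(a / 2 * 1) := by ring
  rw [e, snc_neg]
  ring

/-- the size of the perturbation -/
noncomputable def EE (B M : ℝ) (v : ℂ × ℂ) : ℝ := (B + M) * ‖v.2‖ ^ 2

theorem EE_nonneg (T : Bx Φ q Q c V A B M) {v : ℂ × ℂ} (a : Ad V A B M v) : 0 ≤ EE B M v := by
  have hB := T.B0 a.mem1
  have hM := T.M0 a.mem1
  rw [EE]
  positivity

theorem a_le (T : Bx Φ q Q c V A B M) {v : ℂ × ℂ} (a : Ad V A B M v) :
    ‖deriv Φ v.1 * v.2‖ ≤ 1 / 100 := by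
  rw [norm_mul]
  have h1 := mul_le_mul_of_nonneg_right (T.bA _ a.mem1) (norm_nonneg v.2)
  have h2 := a.h1
  linarith

/-- comparison with the circle -/
theorem cmp (T : Bx Φ q Q c V A B M) {v : ℂ × ℂ} (a : Ad V A B M v) (h0 : v.2 ≠ 0)
    {s : ℂ} (hs : ‖s‖ ≤ 3) :
    ‖Y1 Φ q c v s - (1 - s) * NZ.snc (deriv Φ v.1 * v.2 * (1 - s))‖ ≤ 72 * EE B M v ∧
      ‖Y Φ q c v s - Y0 (deriv Φ v.1 * v.2) s‖ ≤ 216 * EE B M v := by
  have hcb : ∀ y ∈ closedBall (0 : ℂ) 3, ‖y‖ ≤ 3 := fun y hy => by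
    rwa [mem_closedBall_zero_iff] at hy
  obtain ⟨m1, b1, m0, b0, a0⟩ := M1_le T a
  have hA := a.h1
  have hE := EE_nonneg T a
  have hEE : EE B M v = B * ‖v.2‖ ^ 2 + M * ‖v.2‖ ^ 2 := by rw [EE]; ring
  set α := deriv Φ v.1 * v.2 with hα
  have hαle : ‖α‖ ≤ 1 / 100 := a_le T a
  have hb : ∀ y ∈ closedBall (0 : ℂ) 3,
      ‖Y2 Φ q Q c v y - -Complex.cos (α * (1 - y))‖ ≤ 24 * EE B M v := by
    intro y hy
    obtain ⟨h1, h2⟩ := arg_bd T a (hcb y hy)
    have h3 := T.bM _ (a.mem (hcb y hy))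
    have h4 : ‖v.2 ^ 2 * Q (v.1 + v.2 * y) * Y Φ q c v y‖ ≤ M * ‖v.2‖ ^ 2 * 24 := by
      rw [norm_mul, norm_mul, norm_pow]
      refine mul_le_mul ?_ (Y_bd T a h0 (hcb y hy)) (norm_nonneg _) m0
      rw [mul_comm M]
      exact mul_le_mul_of_nonneg_left h3 (by positivity)
    have h5 : ‖α * (1 - y)‖ ≤ 1 / 25 := by
      rw [norm_mul]
      have : ‖1 - y‖ ≤ 4 := by
        refine (norm_sub_le _ _).trans ?_
        rw [norm_one]
        have := hcb y hy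
        linarith
      calc ‖α‖ * ‖1 - y‖ ≤ 1 / 100 * 4 := mul_le_mul hαle this (norm_nonneg _) (by norm_num)
        _ = _ := by norm_num
    have h6 : ‖Complex.cos (aL Φ 1 v - Φ (v.1 + v.2 * y)) - Complex.cos (α * (1 - y))‖ ≤
        B * ‖v.2‖ ^ 2 := by
      have h7 := norm_cos_sub_le (r := 1 / 25) (by norm_num)
        (h1.trans (by linarith)) h5
      refine h7.trans ?_
      calc 2 * (1 / 25) * ‖aL Φ 1 v - Φ (v.1 + v.2 * y) - α * (1 - y)‖ ≤
          2 * (1 / 25) * (9 * (B * ‖v.2‖ ^ 2)) := by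
            exact mul_le_mul_of_nonneg_left h2 (by norm_num)
        _ ≤ _ := by linarith
    have e : Y2 Φ q Q c v y - -Complex.cos (α * (1 - y)) =
        v.2 ^ 2 * Q (v.1 + v.2 * y) * Y Φ q c v y -
        (Complex.cos (aL Φ 1 v - Φ (v.1 + v.2 * y)) - Complex.cos (α * (1 - y))) := by
      rw [Y2]; ring
    rw [e]
    refine (norm_sub_le _ _).trans ?_
    rw [hEE]
    linarith
  have h1 := two_step (f := fun y => Y Φ q c v y - Y0 α y)
    (f1 := fun y => Y1 Φ q c v y - (1 - y) * NZ.snc (α * (1 - y)))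
    (f2 := fun y => Y2 Φ q Q c v y - -Complex.cos (α * (1 - y))) (K := 24 * EE B M v) (r := 3)
    (by norm_num) (by positivity)
    (fun y hy => (hasDerivAt_Y T a h0 (hcb y hy)).sub (hasDerivAt_Y0 α y))
    (fun y hy => (hasDerivAt_Y1 T a h0 (hcb y hy)).sub (hasDerivAt_Y01 α y))
    hb (s := s) (by rwa [mem_closedBall_zero_iff])
  have e1 : Y1 Φ q c v 0 - 1 * NZ.snc (α * 1) = 0 := by
    rw [Y1_zero T a h0, ← hα, mul_one, one_mul, sub_self]
  have e2 : Y Φ q c v 0 - Y0 α 0 = 0 := by rw [Y_zero, Y0_zero, sub_zero]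
  simp only [sub_zero, e1, e2, mul_zero] at h1
  constructor
  · refine h1.1.trans (le_of_eq (by ring))
  · refine h1.2.trans (le_of_eq (by ring))

theorem near2 {z : ℂ} (hz : ‖z - 2‖ ≤ 1 / 4) : ‖z‖ ≤ 3 := by
  have : ‖z‖ ≤ ‖z - 2‖ + ‖(2 : ℂ)‖ := by
    calc ‖z‖ = ‖(z - 2) + 2‖ := by ring_nf
      _ ≤ _ := norm_add_le _ _
  have e : ‖(2 : ℂ)‖ = 2 := by norm_num
  linarith

theorem EE_lt {v : ℂ × ℂ} (a : Ad V A B M v) : EE B M v < 1 / 10000 := a.h2

/-- the root of the scaled incidence function -/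
theorem exists_rt (T : Bx Φ q Q c V A B M) {v : ℂ × ℂ} (a : Ad V A B M v) (h0 : v.2 ≠ 0) :
    ∃ s, ‖s - 2‖ ≤ 1 / 8 ∧ Y Φ q c v s = 0 ∧ ‖s - 2‖ ≤ 333 * EE B M v := by
  have hE := EE_nonneg T a
  have hlt := EE_lt a
  have hn2 : ‖(2 : ℂ)‖ ≤ 3 := by norm_num
  have h2 : ‖Y Φ q c v 2‖ ≤ 216 * EE B M v := by
    have h := (cmp T a h0 hn2).2
    rwa [Y0_two, sub_zero] at h
  have hd : DiffContOnCl ℂ (Y Φ q c v) (ball 2 (1 / 8)) := by
    apply DifferentiableOn.diffContOnCl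
    rw [closure_ball _ (by norm_num)]
    intro z hz
    rw [mem_closedBall_iff_norm] at hz
    exact (hasDerivAt_Y T a h0 (near2 (hz.trans (by norm_num)))).differentiableAt.differentiableWithinAt
  have hsub := hd.ball_subset_image_closedBall (ε := 13 / 160) (by norm_num) (by
    intro z hz
    rw [mem_sphere_iff_norm] at hz
    have h := Y_inj T a h0 (x := z) (y := 2) (by rw [hz]; norm_num) (by simp)
    rw [hz] at h
    refine le_trans (by norm_num) h) (by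
    have h1 : ∀ᶠ z in 𝓝[≠] (2 : ℂ), Y Φ q c v z ≠ Y Φ q c v 2 := by
      have hb : ball (2 : ℂ) (1 / 4) ∈ 𝓝 (2 : ℂ) := ball_mem_nhds _ (by norm_num)
      filter_upwards [mem_nhdsWithin_of_mem_nhds hb, self_mem_nhdsWithin] with z hz hz2 he
      rw [mem_ball_iff_norm] at hz
      have h := Y_inj T a h0 (x := z) (y := 2) hz.le (by simp)
      rw [he, sub_self, norm_zero] at h
      have h3 : ‖z - 2‖ ≤ 0 := by linarith
      have h4 : z - 2 = 0 := norm_le_zero_iff.1 h3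
      exact hz2 (sub_eq_zero.1 h4)
    exact h1.frequently.filter_mono nhdsWithin_le_nhds)
  have h0m : (0 : ℂ) ∈ ball (Y Φ q c v 2) (13 / 160 / 2) := by
    rw [mem_ball_iff_norm, zero_sub, norm_neg]
    linarith
  obtain ⟨s, hs, hs0⟩ := hsub h0m
  rw [mem_closedBall_iff_norm] at hs
  refine ⟨s, hs, hs0, ?_⟩
  have h := Y_inj T a h0 (x := s) (y := 2) (hs.trans (by norm_num)) (by simp)
  rw [hs0, zero_sub, norm_neg] at h
  linarith

theorem Kt_eq (hc : c ≠ 0) {v : ℂ × ℂ} (h0 : v.2 ≠ 0) (s : ℂ) :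
    Kt Φ q c v s = c * Y Φ q c v s := by
  rw [Kt, if_neg h0, Y]
  field_simp

/-- `Xr` is the root, and it is unique -/
theorem Xr_spec (T : Bx Φ q Q c V A B M) {v : ℂ × ℂ} (a : Ad V A B M v) (h0 : v.2 ≠ 0) :
    ‖Xr Φ q c v - 2‖ ≤ 1 / 8 ∧ Y Φ q c v (Xr Φ q c v) = 0 ∧
      ‖Xr Φ q c v - 2‖ ≤ 333 * EE B M v ∧
      ∀ x ∈ ball (2 : ℂ) (1 / 4), Kt Φ q c v x = 0 → x = Xr Φ q c v := by
  obtain ⟨s, hs, hs0, hsE⟩ := exists_rt T a h0
  have huni : ∀ x ∈ ball (2 : ℂ) (1 / 4), Kt Φ q c v x = 0 → x = s := by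
    intro x hx hx0
    rw [Kt_eq T.hc h0] at hx0
    have hx1 := (mul_eq_zero.1 hx0).resolve_left T.hc
    rw [mem_ball_iff_norm] at hx
    have h := Y_inj T a h0 hx.le (hs.trans (by norm_num))
    rw [hx1, hs0, sub_self, norm_zero] at h
    have h3 : ‖x - s‖ ≤ 0 := by linarith
    exact sub_eq_zero.1 (norm_le_zero_iff.1 h3)
  have hex : ∃ x, x ∈ ball (2 : ℂ) (1 / 4) ∧ Kt Φ q c v x = 0 := by
    refine ⟨s, ?_, ?_⟩
    · rw [mem_ball_iff_norm]
      exact hs.trans_lt (by norm_num)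
    · rw [Kt_eq T.hc h0, hs0, mul_zero]
  have e : Xr Φ q c v = s := by
    rw [Xr, dif_pos hex]
    exact huni _ hex.choose_spec.1 hex.choose_spec.2
  rw [e]
  exact ⟨hs, hs0, hsE, huni⟩

theorem Xr_le (T : Bx Φ q Q c V A B M) {v : ℂ × ℂ} (a : Ad V A B M v) :
    ‖Xr Φ q c v - 2‖ ≤ 1 / 8 ∧ ‖Xr Φ q c v - 2‖ ≤ 333 * EE B M v := by
  by_cases h0 : v.2 = 0
  · have e : v = (v.1, 0) := Prod.ext rfl h0
    have h1 : Xr Φ q c v = 2 := by
      rw [e]; exact (Xr_eq T.hc (T.crv _ a.mem1)).2.1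
    rw [h1, sub_self, norm_zero]
    have := EE_nonneg T a
    exact ⟨by norm_num, by positivity⟩
  · have h := Xr_spec T a h0
    exact ⟨h.1, h.2.2.1⟩

theorem T1_mem (T : Bx Φ q Q c V A B M) {v : ℂ × ℂ} (a : Ad V A B M v) : T1 Φ q c v ∈ V :=
  a.mem (near2 ((Xr_le T a).1.trans (by norm_num)))

theorem Gi_T1 (T : Bx Φ q Q c V A B M) {v : ℂ × ℂ} (a : Ad V A B M v) :
    Gi Φ q v (T1 Φ q c v) = 0 := by
  by_cases h0 : v.2 = 0
  · have e : v = (v.1, 0) := Prod.ext rfl h0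
    rw [e, T1_axis]
    simp [Gi, aL, qL]
  · have h := (Xr_spec T a h0).2.1
    rw [Y, div_eq_zero_iff] at h
    exact h.resolve_right (mul_ne_zero T.hc (pow_ne_zero _ h0))

theorem D1_le (T : Bx Φ q Q c V A B M) {v : ℂ × ℂ} (a : Ad V A B M v) :
    ‖D1 Φ q c v‖ ≤ 4 * (A * ‖v.2‖) ∧ ‖D1 Φ q c v‖ ≤ 1 / 25 ∧
      ‖D1 Φ q c v + deriv Φ v.1 * v.2‖ ≤ 13 * EE B M v := by
  obtain ⟨m1, b1, m0, b0, a0⟩ := M1_le T a
  obtain ⟨hx1, hx2⟩ := Xr_le T a
  have hx3 := near2 (hx1.trans (by norm_num))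
  obtain ⟨h1, h2⟩ := arg_bd T a hx3
  have hA := a.h1
  have hα := a_le T a
  have hE := EE_nonneg T a
  have hEE : EE B M v = B * ‖v.2‖ ^ 2 + M * ‖v.2‖ ^ 2 := by rw [EE]; ring
  refine ⟨h1, h1.trans (by linarith), ?_⟩
  have e : D1 Φ q c v + deriv Φ v.1 * v.2 =
      (aL Φ 1 v - Φ (v.1 + v.2 * Xr Φ q c v) - (deriv Φ v.1 * v.2) * (1 - Xr Φ q c v)) -
        (deriv Φ v.1 * v.2) * (Xr Φ q c v - 2) := by
    rw [D1, T1]; ring
  rw [e]
  refine (norm_sub_le _ _).trans ?_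
  rw [norm_mul (deriv Φ v.1 * v.2)]
  have h3 : ‖deriv Φ v.1 * v.2‖ * ‖Xr Φ q c v - 2‖ ≤ 1 / 100 * (333 * EE B M v) :=
    mul_le_mul hα hx2 (norm_nonneg _) (by norm_num)
  have h4 : 9 * (B * ‖v.2‖ ^ 2) ≤ 9 * EE B M v := by rw [hEE]; linarith
  linarith

theorem snc_D1_ne (T : Bx Φ q Q c V A B M) {v : ℂ × ℂ} (a : Ad V A B M v) :
    1 / 2 ≤ ‖NZ.snc (D1 Φ q c v)‖ :=
  snc_ne ((D1_le T a).2.1.trans (by norm_num))

theorem snc_D1_ne' (T : Bx Φ q Q c V A B M) {v : ℂ × ℂ} (a : Ad V A B M v) :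
    NZ.snc (D1 Φ q c v) ≠ 0 := by
  have := snc_D1_ne T a
  intro h
  rw [h, norm_zero] at this
  linarith

/-- the new `η`: `Φ' η₁ = -Δ`, `q' η₁ = B` -/
theorem eta1 (T : Bx Φ q Q c V A B M) {v : ℂ × ℂ} (ad : Ad V A B M v) :
    deriv Φ (T1 Φ q c v) * (SX Φ q c v).2 = -D1 Φ q c v ∧
      deriv q (T1 Φ q c v) * (SX Φ q c v).2 = B1 Φ q c v := by
  have a := snc_D1_ne' T ad
  have b := Gi_T1 T ad
  have w := (T.crv _ (T1_mem T ad)).wr.self_of_nhds
  have hc := T.hc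
  set T' := T1 Φ q c v with hT
  set Δ := D1 Φ q c v with hΔ
  set B' := B1 Φ q c v with hB
  have hB' : B' * NZ.snc Δ = q T' * Complex.cos Δ - qL Φ q 1 v := by
    rw [hB, B1, ← hΔ, ← hT]
    field_simp
  have hD : aL Φ 1 v - Φ T' = Δ := rfl
  rw [Gi, hD, ← hB', ← NZ.mul_snc Δ] at b
  have b' : deriv Φ T' * B' + deriv q T' * Δ = 0 := by
    have : NZ.snc Δ * (deriv Φ T' * B' + deriv q T' * Δ) = 0 := by linear_combination b
    exact (mul_eq_zero.1 this).resolve_left a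
  rw [Wr] at w
  have e1 : (SX Φ q c v).2 = (-Δ * (deriv (deriv q) T' + q T' * deriv Φ T' ^ 2)
      - deriv (deriv Φ) T' * B') / c := rfl
  rw [e1]
  constructor
  · field_simp
    linear_combination (-Δ) * w - deriv (deriv Φ) T' * b'
  · field_simp
    linear_combination B' * w - (deriv (deriv q) T' + q T' * deriv Φ T' ^ 2) * b'

/-- the incoming line at the next phase point is the outgoing line -/
theorem lines (T : Bx Φ q Q c V A B M) {v : ℂ × ℂ} (ad : Ad V A B M v) :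
    aL Φ (-1) (SX Φ q c v) = aL Φ 1 v ∧ qL Φ q (-1) (SX Φ q c v) = qL Φ q 1 v := by
  obtain ⟨h1, h2⟩ := eta1 T ad
  have h0 := snc_D1_ne' T ad
  have e1 : (SX Φ q c v).1 = T1 Φ q c v := rfl
  constructor
  · rw [aL, e1, h1]
    simp only [D1]
    ring
  · have h3 : B1 Φ q c v * NZ.snc (D1 Φ q c v) =
        q (T1 Φ q c v) * Complex.cos (D1 Φ q c v) - qL Φ q 1 v := by
      rw [B1]
      field_simp
    rw [qL, e1, h1, Complex.cos_neg, snc_neg]
    linear_combination -h3 - NZ.snc (D1 Φ q c v) * h2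

/-- `(SX v).2` and the derivative of the incidence function -/
theorem SX2_eq (T : Bx Φ q Q c V A B M) {v : ℂ × ℂ} (a : Ad V A B M v) (h0 : v.2 ≠ 0) :
    (SX Φ q c v).2 * NZ.snc (D1 Φ q c v) = -(v.2 * Y1 Φ q c v (Xr Φ q c v)) := by
  have h := snc_D1_ne' T a
  have hc := T.hc
  have e1 : (SX Φ q c v).2 = (-(D1 Φ q c v) * (deriv (deriv q) (T1 Φ q c v) +
      q (T1 Φ q c v) * deriv Φ (T1 Φ q c v) ^ 2)
      - deriv (deriv Φ) (T1 Φ q c v) * B1 Φ q c v) / c := rfl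
  have h3 : B1 Φ q c v * NZ.snc (D1 Φ q c v) =
      q (T1 Φ q c v) * Complex.cos (D1 Φ q c v) - qL Φ q 1 v := by
    rw [B1]
    field_simp
  have e2 : Y1 Φ q c v (Xr Φ q c v) = (deriv (deriv Φ) (T1 Φ q c v) *
      (q (T1 Φ q c v) * Complex.cos (D1 Φ q c v) - qL Φ q 1 v) +
      (deriv (deriv q) (T1 Φ q c v) + q (T1 Φ q c v) * deriv Φ (T1 Φ q c v) ^ 2) *
      Complex.sin (D1 Φ q c v)) / (c * v.2) := rfl
  rw [e1, e2, ← h3, ← NZ.mul_snc (D1 Φ q c v)]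
  field_simp
  ring

/-- **estimates for one step** -/
theorem step (T : Bx Φ q Q c V A B M) {v : ℂ × ℂ} (a : Ad V A B M v) :
    ‖(SX Φ q c v).1 - (v.1 + 2 * v.2)‖ ≤ 1600 * (B + M) * ‖v.2‖ ^ 3 ∧
      ‖(SX Φ q c v).2 - v.2‖ ≤ 1600 * (B + M) * ‖v.2‖ ^ 3 := by
  have hE := EE_nonneg T a
  have eE : 1600 * (B + M) * ‖v.2‖ ^ 3 = ‖v.2‖ * (1600 * EE B M v) := by rw [EE]; ring
  rw [eE]
  by_cases h0 : v.2 = 0
  · have e : v = (v.1, 0) := Prod.ext rfl h0
    rw [e, SX_axis]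
    simp
  obtain ⟨hx1, hx0, hx2, -⟩ := Xr_spec T a h0
  obtain ⟨hD1, hD2, hD3⟩ := D1_le T a
  have hα := a_le T a
  set x := Xr Φ q c v with hx
  set α := deriv Φ v.1 * v.2 with hαd
  constructor
  · have e : (SX Φ q c v).1 - (v.1 + 2 * v.2) = v.2 * (x - 2) := by
      have : (SX Φ q c v).1 = v.1 + v.2 * x := rfl
      rw [this]; ring
    rw [e, norm_mul]
    exact mul_le_mul_of_nonneg_left (hx2.trans (by linarith)) (norm_nonneg _)
  · have h1 := (cmp T a h0 (near2 (hx1.trans (by norm_num)))).1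
    -- `S (1 - x) - S (-1)`
    have h2 : ‖(1 - x) * NZ.snc (α * (1 - x)) - (-1) * NZ.snc (α * (-1))‖ ≤ 2 * ‖x - 2‖ := by
      have h := (convex_closedBall (-1 : ℂ) (1 / 4)).norm_image_sub_le_of_norm_hasDerivWithin_le
        (f := fun u => u * NZ.snc (α * u)) (f' := fun u => Complex.cos (α * u)) (C := 2)
        (x := -1) (y := 1 - x) (fun u hu => (hasDerivAt_mul_snc α u).hasDerivWithinAt)
        (fun u hu => by
          apply norm_cos_le
          rw [mem_closedBall_iff_norm] at hu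
          rw [norm_mul]
          have h3 : ‖u‖ ≤ 2 := by
            have : ‖u‖ ≤ ‖u - -1‖ + ‖(-1 : ℂ)‖ := by
              calc ‖u‖ = ‖(u - -1) + -1‖ := by ring_nf
                _ ≤ _ := norm_add_le _ _
            have e : ‖(-1 : ℂ)‖ = 1 := by simp
            linarith
          calc ‖α‖ * ‖u‖ ≤ 1 / 100 * 2 := mul_le_mul hα h3 (norm_nonneg _) (by norm_num)
            _ ≤ _ := by norm_num)
        (by simp) (by
          rw [mem_closedBall_iff_norm]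
          have e : 1 - x - -1 = -(x - 2) := by ring
          rw [e, norm_neg]
          exact hx1.trans (by norm_num))
      have e : 1 - x - -1 = -(x - 2) := by ring
      rw [e, norm_neg] at h
      exact h
    have h3 : ‖Y1 Φ q c v x + NZ.snc α‖ ≤ 738 * EE B M v := by
      have e : Y1 Φ q c v x + NZ.snc α = (Y1 Φ q c v x - (1 - x) * NZ.snc (α * (1 - x))) +
          ((1 - x) * NZ.snc (α * (1 - x)) - (-1) * NZ.snc (α * (-1))) := by
        have e1 : α * (-1) = -α := by ring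
        rw [e1, snc_neg]
        ring
      rw [e]
      refine (norm_add_le _ _).trans ?_
      linarith
    have h4 : ‖NZ.snc (D1 Φ q c v) - NZ.snc α‖ ≤ 26 * EE B M v := by
      have h5 := norm_snc_sub_le (z := D1 Φ q c v) (w := -α) (hD2.trans (by norm_num))
        (by rw [norm_neg]; exact hα.trans (by norm_num))
      rw [snc_neg, sub_neg_eq_add] at h5
      linarith
    have h5 := SX2_eq T a h0
    have h6 := snc_D1_ne T a
    have e : ((SX Φ q c v).2 - v.2) * NZ.snc (D1 Φ q c v) =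
        -(v.2 * ((Y1 Φ q c v x + NZ.snc α) + (NZ.snc (D1 Φ q c v) - NZ.snc α))) := by
      linear_combination h5
    have h7 : ‖(SX Φ q c v).2 - v.2‖ * (1 / 2) ≤ ‖v.2‖ * (764 * EE B M v) := by
      calc ‖(SX Φ q c v).2 - v.2‖ * (1 / 2) ≤
          ‖(SX Φ q c v).2 - v.2‖ * ‖NZ.snc (D1 Φ q c v)‖ :=
            mul_le_mul_of_nonneg_left h6 (norm_nonneg _)
        _ = ‖v.2‖ * ‖(Y1 Φ q c v x + NZ.snc α) + (NZ.snc (D1 Φ q c v) - NZ.snc α)‖ := by
            rw [← norm_mul, e, norm_neg, norm_mul]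
        _ ≤ _ := by
            refine mul_le_mul_of_nonneg_left ?_ (norm_nonneg _)
            refine (norm_add_le _ _).trans ?_
            linarith
    have h8 : ‖v.2‖ * (764 * EE B M v) * 2 ≤ ‖v.2‖ * (1600 * EE B M v) := by
      have : 0 ≤ ‖v.2‖ * EE B M v := by positivity
      nlinarith
    linarith

end Vale.Agent.P097.H133.Tm
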