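import Vale.Agent.P097.H133.Tm3

/-! # P097 / case [d], row D3, part 4: analyticity at general phase points, iteration -/

set_option linter.all false

open Complex Metric Filter Topology Set

namespace Vale.Agent.P097.H133.Tm

open Vale.Agent.P097 Vale.Agent.P097.SC

variable {Φ q Q : ℂ → ℂ} {c : ℂ} {V : Set ℂ} {A B M : ℝ}

/-- admissibility is an open condition -/
theorem Ad.near (hV : IsOpen V) {v : ℂ × ℂ} (a : Ad V A B M v) : ∀ᶠ v' in 𝓝 v, Ad V A B M v' := by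
  obtain ⟨δ, hδ, hsub⟩ := (isCompact_closedBall v.1 (3 * ‖v.2‖)).exists_cthickening_subset_open hV a.sub
  rw [cthickening_closedBall hδ.le (by positivity)] at hsub
  have c1 : Continuous fun v' : ℂ × ℂ => dist v'.1 v.1 + 3 * ‖v'.2‖ := by fun_prop
  have c2 : Continuous fun v' : ℂ × ℂ => A * ‖v'.2‖ := by fun_prop
  have c3 : Continuous fun v' : ℂ × ℂ => (B + M) * ‖v'.2‖ ^ 2 := by fun_prop
  have e1 : ∀ᶠ v' in 𝓝 v, dist v'.1 v.1 + 3 * ‖v'.2‖ < δ + 3 * ‖v.2‖ := by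
    refine c1.continuousAt.eventually_lt_const ?_
    simp only [dist_self]
    linarith
  have e2 : ∀ᶠ v' in 𝓝 v, A * ‖v'.2‖ < 1 / 100 := c2.continuousAt.eventually_lt_const a.h1
  have e3 : ∀ᶠ v' in 𝓝 v, (B + M) * ‖v'.2‖ ^ 2 < 1 / 10000 :=
    c3.continuousAt.eventually_lt_const a.h2
  filter_upwards [e1, e2, e3] with v' h1 h2 h3
  refine ⟨fun x hx => hsub ?_, h2, h3⟩
  rw [mem_closedBall] at hx ⊢
  have := dist_triangle x v'.1 v.1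
  linarith

/-- the incidence function is analytic in all variables -/
theorem Kt_an' (T : Bx Φ q Q c V A B M) {v : ℂ × ℂ} (hv : v.1 ∈ V) (h0 : v.2 ≠ 0) {x : ℂ}
    (hx : v.1 + v.2 * x ∈ V) :
    AnalyticAt ℂ (fun z : (ℂ × ℂ) × ℂ => Kt Φ q c z.1 z.2) (v, x) := by
  have hC := T.crv _ hv
  have hC' := T.crv _ hx
  have a1 : AnalyticAt ℂ (fun z : (ℂ × ℂ) × ℂ => z.1.1) (v, x) :=
    analyticAt_fst.comp analyticAt_fst
  have a2 : AnalyticAt ℂ (fun z : (ℂ × ℂ) × ℂ => z.1.2) (v, x) :=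
    analyticAt_snd.comp analyticAt_fst
  have a3 : AnalyticAt ℂ (fun z : (ℂ × ℂ) × ℂ => z.2) (v, x) := analyticAt_snd
  have aT : AnalyticAt ℂ (fun z : (ℂ × ℂ) × ℂ => z.1.1 + z.1.2 * z.2) (v, x) :=
    a1.add (a2.mul a3)
  have g1 : ∀ {g : ℂ → ℂ}, AnalyticAt ℂ g (v.1 + v.2 * x) →
      AnalyticAt ℂ (fun z : (ℂ × ℂ) × ℂ => g (z.1.1 + z.1.2 * z.2)) (v, x) :=
    fun hg => hg.comp_of_eq aT rfl
  have aα : AnalyticAt ℂ (fun z : (ℂ × ℂ) × ℂ => aL Φ 1 z.1) (v, x) :=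
    (aL_an 1 hC.aΦ).comp_of_eq analyticAt_fst rfl
  have aq : AnalyticAt ℂ (fun z : (ℂ × ℂ) × ℂ => qL Φ q 1 z.1) (v, x) :=
    (qL_an 1 hC.aΦ hC.aq).comp_of_eq analyticAt_fst rfl
  have aD : AnalyticAt ℂ (fun z : (ℂ × ℂ) × ℂ => aL Φ 1 z.1 - Φ (z.1.1 + z.1.2 * z.2)) (v, x) :=
    aα.sub (g1 hC'.aΦ)
  have acos : AnalyticAt ℂ (fun z : (ℂ × ℂ) × ℂ =>
      Complex.cos (aL Φ 1 z.1 - Φ (z.1.1 + z.1.2 * z.2))) (v, x) := (cos_an _).comp aD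
  have asin : AnalyticAt ℂ (fun z : (ℂ × ℂ) × ℂ =>
      Complex.sin (aL Φ 1 z.1 - Φ (z.1.1 + z.1.2 * z.2))) (v, x) := (sin_an _).comp aD
  have aG : AnalyticAt ℂ (fun z : (ℂ × ℂ) × ℂ => Gi Φ q z.1 (z.1.1 + z.1.2 * z.2)) (v, x) :=
    ((g1 hC'.aΦ.deriv).mul (((g1 hC'.aq).mul acos).sub aq)).add ((g1 hC'.aq.deriv).mul asin)
  have aF := aG.div (a2.pow 2) (pow_ne_zero 2 h0)
  refine aF.congr ?_
  have h1 : ∀ᶠ z in 𝓝 ((v, x) : (ℂ × ℂ) × ℂ), z.1.2 ≠ 0 :=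
    a2.continuousAt.eventually_ne h0
  filter_upwards [h1] with z hz
  rw [Kt, if_neg hz]
  rfl

/-- `Xr` is analytic at the admissible points -/
theorem Xr_an (T : Bx Φ q Q c V A B M) {v : ℂ × ℂ} (a : Ad V A B M v) :
    AnalyticAt ℂ (Xr Φ q c) v := by
  by_cases h0 : v.2 = 0
  · have e : v = (v.1, 0) := Prod.ext rfl h0
    rw [e]
    exact (Xr_eq T.hc (T.crv _ a.mem1)).1
  obtain ⟨hx1, hx0, -, -⟩ := Xr_spec T a h0
  set s := Xr Φ q c v with hs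
  have hs3 : ‖s‖ ≤ 3 := near2 (hx1.trans (by norm_num))
  have hK := Kt_an' T a.mem1 h0 (a.mem hs3)
  have hd : deriv (fun y => (fun z : (ℂ × ℂ) × ℂ => Kt Φ q c z.1 z.2) (v, y)) s ≠ 0 := by
    have e1 : (fun y => (fun z : (ℂ × ℂ) × ℂ => Kt Φ q c z.1 z.2) (v, y)) =
        fun y => c * Y Φ q c v y := by
      funext y
      exact Kt_eq T.hc h0 y
    rw [e1, ((hasDerivAt_Y T a h0 hs3).const_mul c).deriv]
    refine mul_ne_zero T.hc ?_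
    intro h
    have h1 := Y1_bd T a h0 hs3
    rw [h, zero_sub, norm_neg] at h1
    have h2 : ‖(1 : ℂ)‖ ≤ ‖1 - s‖ + ‖s - 2‖ := by
      have h3 : ‖(1 - s) + (s - 2)‖ ≤ ‖1 - s‖ + ‖s - 2‖ := norm_add_le _ _
      have e : (1 - s) + (s - 2) = -1 := by ring
      rw [e, norm_neg] at h3
      exact h3
    rw [norm_one] at h2
    linarith
  obtain ⟨X, aX, X0, hX1, -⟩ := H650.ift_scalar hK (by
    show Kt Φ q c v s = 0
    rw [Kt_eq T.hc h0, hx0, mul_zero]) hd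
  refine aX.congr ?_
  have hXm : ∀ᶠ v' in 𝓝 v, X v' ∈ ball (2 : ℂ) (1 / 4) := by
    refine aX.continuousAt.eventually_mem ?_
    rw [X0]
    refine isOpen_ball.mem_nhds ?_
    rw [mem_ball_iff_norm]
    exact hx1.trans_lt (by norm_num)
  have hne : ∀ᶠ v' : ℂ × ℂ in 𝓝 v, v'.2 ≠ 0 := continuousAt_snd.eventually_ne h0
  filter_upwards [hX1, hXm, hne, a.near T.op] with v' h1 h2 h3 h4
  exact (Xr_spec T h4 h3).2.2.2 _ h2 h1

theorem T1_an (T : Bx Φ q Q c V A B M) {v : ℂ × ℂ} (a : Ad V A B M v) :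
    AnalyticAt ℂ (T1 Φ q c) v :=
  analyticAt_fst.add (analyticAt_snd.mul (Xr_an T a))

theorem comp_T1_an (T : Bx Φ q Q c V A B M) {v : ℂ × ℂ} (a : Ad V A B M v) {g : ℂ → ℂ}
    (hg : AnalyticAt ℂ g (T1 Φ q c v)) : AnalyticAt ℂ (fun v => g (T1 Φ q c v)) v :=
  hg.comp_of_eq (T1_an T a) rfl

theorem D1_an (T : Bx Φ q Q c V A B M) {v : ℂ × ℂ} (a : Ad V A B M v) :
    AnalyticAt ℂ (D1 Φ q c) v :=
  (aL_an 1 (T.crv _ a.mem1).aΦ).sub (comp_T1_an T a (T.crv _ (T1_mem T a)).aΦ)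

theorem B1_an (T : Bx Φ q Q c V A B M) {v : ℂ × ℂ} (a : Ad V A B M v) :
    AnalyticAt ℂ (B1 Φ q c) v := by
  have h := T.crv _ (T1_mem T a)
  have h' := T.crv _ a.mem1
  have h1 := comp_T1_an T a h.aq
  have h2 : AnalyticAt ℂ (fun v => Complex.cos (D1 Φ q c v)) v :=
    (cos_an _).comp (D1_an T a)
  have h3 := qL_an (v := v) 1 h'.aΦ h'.aq
  have h4 : AnalyticAt ℂ (fun v => NZ.snc (D1 Φ q c v)) v :=
    (NZ.snc_an _).comp (D1_an T a)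
  exact ((h1.mul h2).sub h3).div h4 (snc_D1_ne' T a)

theorem SX2_an (T : Bx Φ q Q c V A B M) {v : ℂ × ℂ} (a : Ad V A B M v) :
    AnalyticAt ℂ (fun v => (SX Φ q c v).2) v := by
  have h := T.crv _ (T1_mem T a)
  have h1 := comp_T1_an T a h.aq.deriv.deriv
  have h2 := comp_T1_an T a h.aq
  have h3 := comp_T1_an T a h.aΦ.deriv
  have h4 := comp_T1_an T a h.aΦ.deriv.deriv
  have h5 := D1_an T a
  have h6 := B1_an T a
  exact (((h5.neg).mul (h1.add (h2.mul (h3.pow 2)))).sub (h4.mul h6)).div analyticAt_const T.hc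

/-- **the billiard map is analytic at the admissible points** -/
theorem SX_an (T : Bx Φ q Q c V A B M) {v : ℂ × ℂ} (a : Ad V A B M v) :
    AnalyticAt ℂ (SX Φ q c) v :=
  (T1_an T a).prod (SX2_an T a)

/-- **iteration**: as long as the line `θ + 2 k η` stays in the box, the iterates are analytic, and
they are close to this line -/
theorem iter (T : Bx Φ q Q c V A B M) {θ η : ℂ} {n : ℕ} {ρ : ℝ} (hθ : θ ∈ V)
    (hV : ∀ k : ℕ, k ≤ n → closedBall (θ + 2 * k * η) ρ ⊆ V)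
    (hA : 2 * (A * ‖η‖) < 1 / 100) (hE : 4 * ((B + M) * ‖η‖ ^ 2) < 1 / 10000)
    (h1 : 12800 * (B + M) * n * ‖η‖ ^ 2 ≤ 1)
    (h2 : 25600 * (B + M) * n ^ 2 * ‖η‖ ^ 3 + 6 * ‖η‖ ≤ ρ) :
    ∀ k : ℕ, k ≤ n → Ad V A B M ((SX Φ q c)^[k] (θ, η)) ∧
      AnalyticAt ℂ ((SX Φ q c)^[k]) (θ, η) ∧
      ‖((SX Φ q c)^[k] (θ, η)).2 - η‖ ≤ 12800 * (B + M) * k * ‖η‖ ^ 3 ∧
      ‖((SX Φ q c)^[k] (θ, η)).1 - (θ + 2 * k * η)‖ ≤ 25600 * (B + M) * k ^ 2 * ‖η‖ ^ 3 := by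
  have hη := norm_nonneg η
  have hA0 := T.A0 hθ
  have hB0 := T.B0 hθ
  have hM0 := T.M0 hθ
  -- admissibility from the estimates
  have key : ∀ k : ℕ, k ≤ n → ∀ v : ℂ × ℂ,
      ‖v.2 - η‖ ≤ 12800 * (B + M) * k * ‖η‖ ^ 3 →
      ‖v.1 - (θ + 2 * k * η)‖ ≤ 25600 * (B + M) * k ^ 2 * ‖η‖ ^ 3 →
      ‖v.2‖ ≤ 2 * ‖η‖ ∧ Ad V A B M v := by
    intro k hk v he hf
    have hkn : (k : ℝ) ≤ n := by exact_mod_cast hk
    have hk0 : (0 : ℝ) ≤ k := Nat.cast_nonneg k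
    have i1 : 12800 * (B + M) * k * ‖η‖ ^ 3 ≤ ‖η‖ := by
      calc 12800 * (B + M) * k * ‖η‖ ^ 3 ≤ 12800 * (B + M) * n * ‖η‖ ^ 3 := by gcongr
        _ = (12800 * (B + M) * n * ‖η‖ ^ 2) * ‖η‖ := by ring
        _ ≤ 1 * ‖η‖ := mul_le_mul_of_nonneg_right h1 hη
        _ = ‖η‖ := one_mul _
    have i2 : ‖v.2‖ ≤ 2 * ‖η‖ := by
      have : ‖v.2‖ ≤ ‖v.2 - η‖ + ‖η‖ := by
        calc ‖v.2‖ = ‖(v.2 - η) + η‖ := by ring_nf
          _ ≤ _ := norm_add_le _ _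
      linarith
    have i3 : 25600 * (B + M) * k ^ 2 * ‖η‖ ^ 3 ≤ 25600 * (B + M) * n ^ 2 * ‖η‖ ^ 3 := by gcongr
    refine ⟨i2, ⟨?_, ?_, ?_⟩⟩
    · refine subset_trans (closedBall_subset_closedBall' ?_) (hV k hk)
      rw [dist_eq_norm]
      linarith
    · have : A * ‖v.2‖ ≤ A * (2 * ‖η‖) := mul_le_mul_of_nonneg_left i2 hA0
      linarith
    · have : (B + M) * ‖v.2‖ ^ 2 ≤ (B + M) * (2 * ‖η‖) ^ 2 := by gcongr
      nlinarith
  intro k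
  induction k with
  | zero =>
    intro hk
    have h := key 0 hk (θ, η) (by simp) (by simp)
    refine ⟨h.2, ?_, by simp, by simp⟩
    simp only [Function.iterate_zero]
    exact analyticAt_id
  | succ k ih =>
    intro hk
    obtain ⟨had, han, he, hf⟩ := ih (Nat.le_of_succ_le hk)
    obtain ⟨h2η, -⟩ := key k (Nat.le_of_succ_le hk) _ he hf
    set v := (SX Φ q c)^[k] (θ, η) with hv
    obtain ⟨s1, s2⟩ := step T had
    have hs : (SX Φ q c)^[k + 1] (θ, η) = SX Φ q c v := by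
      rw [Function.iterate_succ_apply', hv]
    have hδ : 1600 * (B + M) * ‖v.2‖ ^ 3 ≤ 12800 * (B + M) * ‖η‖ ^ 3 := by
      calc 1600 * (B + M) * ‖v.2‖ ^ 3 ≤ 1600 * (B + M) * (2 * ‖η‖) ^ 3 := by gcongr
        _ = _ := by ring
    have hδ0 : 0 ≤ (B + M) * ‖η‖ ^ 3 := by positivity
    have he' : ‖(SX Φ q c v).2 - η‖ ≤ 12800 * (B + M) * (k + 1 : ℕ) * ‖η‖ ^ 3 := by
      have e : (SX Φ q c v).2 - η = ((SX Φ q c v).2 - v.2) + (v.2 - η) := by ring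
      rw [e]
      refine (norm_add_le _ _).trans ?_
      push_cast
      linarith
    have hf' : ‖(SX Φ q c v).1 - (θ + 2 * (k + 1 : ℕ) * η)‖ ≤
        25600 * (B + M) * (k + 1 : ℕ) ^ 2 * ‖η‖ ^ 3 := by
      have e : (SX Φ q c v).1 - (θ + 2 * (k + 1 : ℕ) * η) =
          ((SX Φ q c v).1 - (v.1 + 2 * v.2)) + (v.1 - (θ + 2 * k * η)) + 2 * (v.2 - η) := by
        push_cast; ring
      rw [e]
      refine (norm_add_le _ _).trans ?_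
      have h3 := norm_add_le ((SX Φ q c v).1 - (v.1 + 2 * v.2)) (v.1 - (θ + 2 * k * η))
      have h4 : ‖2 * (v.2 - η)‖ = 2 * ‖v.2 - η‖ := by rw [norm_mul]; norm_num
      rw [h4]
      push_cast
      have hk0 : (0 : ℝ) ≤ k := Nat.cast_nonneg k
      have h5 : 25600 * (B + M) * ((k : ℝ) + 1) ^ 2 * ‖η‖ ^ 3 =
          25600 * (B + M) * (k : ℝ) ^ 2 * ‖η‖ ^ 3 + 2 * (12800 * (B + M) * k * ‖η‖ ^ 3) * 2 +
            25600 * ((B + M) * ‖η‖ ^ 3) := by ring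
      rw [h5]
      have h6 : 0 ≤ 12800 * (B + M) * k * ‖η‖ ^ 3 := by positivity
      linarith
    rw [hs]
    obtain ⟨-, had'⟩ := key (k + 1) hk _ he' hf'
    refine ⟨had', ?_, he', hf'⟩
    have e : (SX Φ q c)^[k + 1] = SX Φ q c ∘ (SX Φ q c)^[k] := Function.iterate_succ' _ _
    rw [e]
    exact (SX_an T had).comp_of_eq han hv.symm

end Vale.Agent.P097.H133.Tm
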